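import Mathlib
import Crest.Prelude.Def_AsymptoticConvexity

/-! Common lemmas on closed finite-codimensional subspaces and asymptotic uniform convexity. -/

set_option autoImplicit false

open Crest.AnalysisR Filter Topology

namespace Crest.Agent.R125

section generic
variable {X : Type} [NormedAddCommGroup X] [NormedSpace ℝ X]

/-- closed and of finite codimension -/
def Cof (F : Submodule ℝ X) : Prop := IsClosed (F : Set X) ∧ FiniteDimensional ℝ (X ⧸ F)

lemma cof_ker {Y : Type} [NormedAddCommGroup Y] [NormedSpace ℝ Y] [FiniteDimensional ℝ Y]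
    (T : X →L[ℝ] Y) : Cof (LinearMap.ker (T : X →ₗ[ℝ] Y)) := by
  refine ⟨T.isClosed_ker, ?_⟩
  exact (LinearMap.quotKerEquivRange (T : X →ₗ[ℝ] Y)).symm.finiteDimensional

/-- the common kernel of finitely many functionals -/
lemma exists_cof_of_functionals {ι : Type} [Finite ι] (φ : ι → X →L[ℝ] ℝ) :
    ∃ F : Submodule ℝ X, Cof F ∧ ∀ y ∈ F, ∀ i, φ i y = 0 := by
  classical
  have := Fintype.ofFinite ι
  refine ⟨LinearMap.ker ((ContinuousLinearMap.pi φ : X →L[ℝ] (ι → ℝ)) : X →ₗ[ℝ] (ι → ℝ)),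
    cof_ker _, fun y hy i => ?_⟩
  have := LinearMap.mem_ker.1 hy
  exact congrFun this i

lemma exists_cof_of_finset (Φ : Finset (X →L[ℝ] ℝ)) :
    ∃ F : Submodule ℝ X, Cof F ∧ ∀ y ∈ F, ∀ φ ∈ Φ, φ y = 0 := by
  obtain ⟨F, hF, h⟩ := exists_cof_of_functionals (fun φ : Φ => (φ : X →L[ℝ] ℝ))
  exact ⟨F, hF, fun y hy φ hφ => h y hy ⟨φ, hφ⟩⟩

/-- A closed finite-codimensional subspace is the kernel of a norm-one map to a finite-dimensional
space that controls the distance to the subspace. -/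
lemma Cof.exists_quot {F : Submodule ℝ X} (hF : Cof F) :
    ∃ (Y : Type) (_ : NormedAddCommGroup Y) (_ : NormedSpace ℝ Y) (_ : FiniteDimensional ℝ Y)
      (Q : X →L[ℝ] Y), (∀ x, ‖Q x‖ ≤ ‖x‖) ∧
        ∀ x ε, ‖Q x‖ < ε → ∃ y ∈ F, ‖x - y‖ < ε := by
  have := hF.1
  have := hF.2
  have hle : ∀ x : X, ‖F.mkQ x‖ ≤ ‖x‖ := fun x => Submodule.Quotient.norm_mk_le F x
  refine ⟨X ⧸ F, inferInstance, inferInstance, inferInstance,
    F.mkQ.mkContinuous 1 (fun x => by simpa using hle x), fun x => hle x, fun x ε h => ?_⟩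
  have h' : ‖F.mkQ x‖ < ε := h
  obtain ⟨m, hm, hm'⟩ := Submodule.Quotient.norm_mk_lt (F.mkQ x) (sub_pos.2 h')
  refine ⟨x - m, ?_, ?_⟩
  · exact (Submodule.Quotient.eq F).1 hm.symm
  · simp only [sub_sub_cancel]
    linarith

/-- two terms of a bounded sequence have a difference near `F` -/
lemma Cof.exists_sub_near {F : Submodule ℝ X} (hF : Cof F) (z : ℕ → X) (M : ℝ)
    (hz : ∀ i, ‖z i‖ ≤ M) {ε : ℝ} (hε : 0 < ε) :
    ∃ i j, i ≠ j ∧ ∃ y ∈ F, ‖z i - z j - y‖ < ε := by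
  obtain ⟨Y, _, _, _, Q, hQ, hQ'⟩ := hF.exists_quot
  have := FiniteDimensional.proper_real Y
  obtain ⟨q, -, φ, hφ, hq⟩ := tendsto_subseq_of_bounded (Metric.isBounded_closedBall
    (x := (0 : Y)) (r := M)) (x := fun i => Q (z i))
    (fun i => by simpa using (hQ _).trans (hz i))
  obtain ⟨K, hK⟩ := Metric.tendsto_atTop.1 hq (ε / 2) (half_pos hε)
  refine ⟨φ K, φ (K + 1), (hφ (Nat.lt_succ_self K)).ne, hQ' _ _ ?_⟩
  have h1 := hK K le_rfl
  have h2 := hK (K + 1) (Nat.le_succ K)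
  rw [map_sub, ← dist_eq_norm]
  calc _ ≤ dist (Q (z (φ K))) q + dist (Q (z (φ (K + 1)))) q := dist_triangle_right _ _ _
    _ < ε / 2 + ε / 2 := add_lt_add h1 h2
    _ = ε := add_halves ε

/-- a sequence with an upper `ℓ²` estimate has a term near `F` -/
lemma Cof.exists_near {F : Submodule ℝ X} (hF : Cof F) (z : ℕ → X) (C : ℝ)
    (hz : ∀ A : Finset ℕ, ‖∑ a ∈ A, z a‖ ^ 2 ≤ C * A.card) {ε : ℝ} (hε : 0 < ε) :
    ∃ i, ∃ y ∈ F, ‖z i - y‖ < ε := by
  obtain ⟨Y, _, _, _, Q, hQ, hQ'⟩ := hF.exists_quot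
  have := FiniteDimensional.proper_real Y
  have hb : ∀ i, ‖z i‖ ≤ Real.sqrt C := by
    intro i
    have := hz {i}
    simp only [Finset.sum_singleton, Finset.card_singleton, Nat.cast_one, mul_one] at this
    exact Real.le_sqrt_of_sq_le this
  obtain ⟨q, -, φ, hφ, hq⟩ := tendsto_subseq_of_bounded (Metric.isBounded_closedBall
    (x := (0 : Y)) (r := Real.sqrt C)) (x := fun i => Q (z i))
    (fun i => by simpa using (hQ _).trans (hb i))
  obtain ⟨K, hK⟩ := Metric.tendsto_atTop.1 hq (ε / 4) (by positivity)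
  by_contra hcon
  have hbig : ∀ i, ε ≤ ‖Q (z i)‖ := by
    intro i
    by_contra h
    exact hcon ⟨i, hQ' _ _ (not_le.1 h)⟩
  have hqn : 3 * ε / 4 ≤ ‖q‖ := by
    have h1 := hK K le_rfl
    have h2 := hbig (φ K)
    simp only [Function.comp, dist_eq_norm] at h1
    have h3 := norm_sub_norm_le (Q (z (φ K))) q
    linarith
  obtain ⟨m, hm⟩ := exists_nat_gt (4 * C / ε ^ 2)
  have hm' : 4 * C < (m + 1 : ℝ) * ε ^ 2 := by
    rw [div_lt_iff₀ (by positivity)] at hm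
    nlinarith [sq_pos_of_pos hε]
  have hinj : Function.Injective fun k => φ (K + k) := fun a b h => by
    simpa using hφ.injective h
  have h1 := hz ((Finset.range (m + 1)).map ⟨_, hinj⟩)
  rw [Finset.sum_map, Finset.card_map, Finset.card_range] at h1
  simp only [Function.Embedding.coeFn_mk] at h1
  have h2 : ‖∑ k ∈ Finset.range (m + 1), (Q (z (φ (K + k))) - q)‖ ≤ (m + 1 : ℝ) * (ε / 4) := by
    refine (norm_sum_le _ _).trans ?_
    have := Finset.sum_le_card_nsmul (Finset.range (m + 1))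
      (fun k => ‖Q (z (φ (K + k))) - q‖) (ε / 4) (fun k _ => by
        have := hK (K + k) (Nat.le_add_right _ _)
        simp only [Function.comp, dist_eq_norm] at this
        exact this.le)
    simpa using this
  rw [Finset.sum_sub_distrib, ← map_sum, Finset.sum_const, Finset.card_range,
    ← Nat.cast_smul_eq_nsmul ℝ] at h2
  have h3 := hQ (∑ k ∈ Finset.range (m + 1), z (φ (K + k)))
  have h4 := norm_sub_norm_le (((m + 1 : ℕ) : ℝ) • q)
    (Q (∑ k ∈ Finset.range (m + 1), z (φ (K + k))))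
  rw [norm_sub_rev, norm_smul, Real.norm_eq_abs, abs_of_nonneg (by positivity)] at h4
  push_cast at h4 h2 h1
  have hm0 : (0 : ℝ) < m + 1 := by positivity
  have h5 : (m + 1 : ℝ) * (ε / 2) ≤ ‖∑ k ∈ Finset.range (m + 1), z (φ (K + k))‖ := by
    nlinarith [mul_le_mul_of_nonneg_left hqn hm0.le]
  have h6 := pow_le_pow_left₀ (by positivity) h5 2
  nlinarith

/-- equivalent norm, unbundled -/
def EqNorm (N : X → ℝ) : Prop :=
  (∀ x y : X, N (x + y) ≤ N x + N y) ∧ (∀ (a : ℝ) (x : X), N (a • x) = abs a * N x) ∧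
    ∃ a b : ℝ, 0 < a ∧ ∀ x : X, a * ‖x‖ ≤ N x ∧ N x ≤ b * ‖x‖

/-- asymptotic uniform convexity, unbundled -/
def AUC (N : X → ℝ) : Prop :=
  ∀ t : ℝ, 0 < t → ∃ c : ℝ, 0 < c ∧ ∀ x : X, N x = 1 → ∃ F : Submodule ℝ X, Cof F ∧
    ∀ y ∈ F, N y = 1 → c ≤ N (x + t • y) - 1

/-- Bounded separated trees that are asymptotically null rule out an AUC renorming. -/
lemma not_auc_of_trees {θ m M : ℝ} (hθ : 0 < θ) (hm : 0 < m)
    (h : ∀ n : ℕ, ∃ S : ℕ → Set X, (S 0).Nonempty ∧ (∀ k ≤ n, ∀ x ∈ S k, m ≤ ‖x‖ ∧ ‖x‖ ≤ M) ∧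
      ∀ k < n, ∀ x ∈ S k, ∀ F : Submodule ℝ X, Cof F → ∀ ε > 0,
        ∃ y ∈ F, ∃ x' ∈ S (k + 1), θ ≤ ‖y‖ ∧ ‖x + y - x'‖ ≤ ε)
    (N : X → ℝ) (hN : EqNorm N) : ¬ AUC N := by
  intro hA
  obtain ⟨hadd, hsmul, a, b, ha, hab⟩ := hN
  obtain ⟨S₀, ⟨x₀, hx₀⟩, hS₀, -⟩ := h 0
  have hM : 0 < M := hm.trans_le ((hS₀ 0 le_rfl x₀ hx₀).1.trans (hS₀ 0 le_rfl x₀ hx₀).2)
  have hb : 0 < b := by
    have h1 := hab x₀
    have h2 : 0 < ‖x₀‖ := hm.trans_le (hS₀ 0 le_rfl x₀ hx₀).1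
    by_contra hb
    have : b * ‖x₀‖ ≤ 0 := mul_nonpos_of_nonpos_of_nonneg (not_lt.1 hb) h2.le
    nlinarith [mul_pos ha h2]
  set t := a * θ / (b * M) with ht
  have htpos : 0 < t := by positivity
  obtain ⟨c, hc, hAc⟩ := hA t htpos
  obtain ⟨n, hn⟩ := pow_unbounded_of_one_lt (b * M / (a * m)) (y := 1 + c / 2) (by linarith)
  obtain ⟨S, ⟨x₁, hx₁⟩, hS, hstep⟩ := h n
  have key : ∀ k ≤ n, ∃ x ∈ S k, a * m * (1 + c / 2) ^ k ≤ N x := by
    intro k
    induction k with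
    | zero =>
      intro _
      refine ⟨x₁, hx₁, ?_⟩
      have := (hab x₁).1
      have h2 := (hS 0 (Nat.zero_le _) x₁ hx₁).1
      nlinarith
    | succ k ih =>
      intro hk
      obtain ⟨x, hx, hxN⟩ := ih (Nat.le_of_succ_le hk)
      have hxb := hS k (Nat.le_of_succ_le hk) x hx
      have hr0 : a * m ≤ N x := by nlinarith [(hab x).1, hxb.1]
      have hr : 0 < N x := lt_of_lt_of_le (by positivity) hr0
      have hr1 : N x ≤ b * M := by nlinarith [(hab x).2, hxb.2]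
      obtain ⟨F, hF, hFc⟩ := hAc ((N x)⁻¹ • x) (by
        rw [hsmul, abs_of_pos (inv_pos.2 hr), inv_mul_cancel₀ hr.ne'])
      obtain ⟨y, hy, x', hx', hyθ, hxy⟩ := hstep k hk x hx F hF (a * m * c / (2 * b))
        (by positivity)
      have hNy0 : a * θ ≤ N y := by nlinarith [(hab y).1]
      have hNy : 0 < N y := lt_of_lt_of_le (by positivity) hNy0
      have h1 := hFc ((N y)⁻¹ • y) (F.smul_mem _ hy) (by
        rw [hsmul, abs_of_pos (inv_pos.2 hNy), inv_mul_cancel₀ hNy.ne'])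
      set l := t * N x / N y with hl
      have hl0 : 0 < l := by positivity
      have hl1 : l ≤ 1 := by
        rw [hl, div_le_one hNy, ht, div_mul_eq_mul_div, div_le_iff₀ (by positivity)]
        calc a * θ * N x ≤ a * θ * (b * M) := by gcongr
          _ ≤ N y * (b * M) := by gcongr
      have e : (N x)⁻¹ • x + t • (N y)⁻¹ • y =
          (N x)⁻¹ • ((1 - l) • x + l • (x + y)) := by
        rw [smul_add l, ← add_assoc, ← add_smul, sub_add_cancel, one_smul, smul_add, smul_smul,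
          smul_smul, hl]
        congr 2
        field_simp
      rw [e, hsmul, abs_of_pos (inv_pos.2 hr)] at h1
      have h2 := hadd ((1 - l) • x) (l • (x + y))
      rw [hsmul, hsmul, abs_of_nonneg (sub_nonneg.2 hl1), abs_of_pos hl0] at h2
      have h3 : (1 + c) * N x ≤ N ((1 - l) • x + l • (x + y)) := by
        rw [← le_div_iff₀ hr, div_eq_inv_mul]
        linarith
      have h4 : (1 + c) * N x ≤ N (x + y) := by
        by_contra hcon
        push Not at hcon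
        have h5 : l * N (x + y) < l * ((1 + c) * N x) := mul_lt_mul_of_pos_left hcon hl0
        nlinarith [mul_nonneg (sub_nonneg.2 hl1) (mul_pos hc hr).le]
      have h5 : N (x + y) ≤ N x' + N (x + y - x') := by
        have := hadd x' (x + y - x')
        rwa [add_sub_cancel] at this
      have h6 : N (x + y - x') ≤ a * m * c / 2 := by
        calc _ ≤ b * ‖x + y - x'‖ := (hab _).2
          _ ≤ b * (a * m * c / (2 * b)) := by gcongr
          _ = _ := by field_simp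
      refine ⟨x', hx', ?_⟩
      rw [pow_succ]
      have h7 : (1 + c / 2) * N x ≤ N x' := by nlinarith
      calc a * m * ((1 + c / 2) ^ k * (1 + c / 2)) = (1 + c / 2) * (a * m * (1 + c / 2) ^ k) := by
            ring
        _ ≤ (1 + c / 2) * N x := by gcongr
        _ ≤ N x' := h7
  obtain ⟨x, hx, hxN⟩ := key n le_rfl
  have h1 := (hab x).2
  have h2 := (hS n le_rfl x hx).2
  rw [div_lt_iff₀ (by positivity)] at hn
  nlinarith

lemma not_auc_of_tree {θ m M : ℝ} (hθ : 0 < θ) (hm : 0 < m) (S : Set X) (hne : S.Nonempty)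
    (hb : ∀ x ∈ S, m ≤ ‖x‖ ∧ ‖x‖ ≤ M)
    (hstep : ∀ x ∈ S, ∀ F : Submodule ℝ X, Cof F → ∀ ε > 0,
        ∃ y ∈ F, ∃ x' ∈ S, θ ≤ ‖y‖ ∧ ‖x + y - x'‖ ≤ ε)
    (N : X → ℝ) (hN : EqNorm N) : ¬ AUC N :=
  not_auc_of_trees hθ hm (M := M)
    (fun _ => ⟨fun _ => S, hne, fun _ _ => hb, fun _ _ => hstep⟩) N hN

lemma eqNorm_norm : EqNorm (fun x : X => ‖x‖) :=
  ⟨norm_add_le, fun a x => by simp [norm_smul], 1, 1, one_pos, fun x => by simp⟩

lemma not_finiteDimensional_of_not_auc (h : ¬ AUC (fun x : X => ‖x‖)) :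
    ¬ FiniteDimensional ℝ X := by
  intro hf
  refine h fun t _ => ⟨1, one_pos, fun x _ => ⟨⊥, ⟨by simp, inferInstance⟩, fun y hy hy1 => ?_⟩⟩
  rw [Submodule.mem_bot] at hy
  simp [hy] at hy1

end generic

section bundled
variable {X : Type} [i1 : NormedAddCommGroup X] [i2 : NormedSpace ℝ X] {i3 : CompleteSpace X}

lemma isCof_iff (F : Set X) : (RealBanach.mk X i1 i2 i3).IsCof F ↔
    ∃ S : Submodule ℝ X, (S : Set X) = F ∧ Cof S := by
  constructor
  · rintro ⟨S, rfl, h1, h2⟩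
    exact ⟨S, rfl, h1, h2⟩
  · rintro ⟨S, rfl, h1, h2⟩
    exact ⟨S, rfl, h1, h2⟩

lemma Cof.isCof {S : Submodule ℝ X} (h : Cof S) : (RealBanach.mk X i1 i2 i3).IsCof (S : Set X) :=
  (isCof_iff _).2 ⟨S, rfl, h⟩

lemma auc_of_isAUC {N : X → ℝ} (h : (RealBanach.mk X i1 i2 i3).IsAUC N) : AUC N := by
  intro t ht
  obtain ⟨c, hc, h⟩ := h t ht
  refine ⟨c, hc, fun x hx => ?_⟩
  obtain ⟨F, hF, h⟩ := h x hx
  obtain ⟨S, rfl, hS⟩ := (isCof_iff F).1 hF
  exact ⟨S, hS, h⟩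

lemma eqNorm_of_isEquivNorm {N : X → ℝ} (h : (RealBanach.mk X i1 i2 i3).IsEquivNorm N) :
    EqNorm N := h

end bundled

end Crest.Agent.R125
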