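import Mathlib
import Crest.Agent.R125.Common

/-! Passing from unbundled statements to the `RealBanach` predicates. -/

set_option autoImplicit false

open Crest.AnalysisR

namespace Crest.Agent.R125

variable {X : Type} [i1 : NormedAddCommGroup X] [i2 : NormedSpace ℝ X] {i3 : CompleteSpace X}

lemma midpointGE_of {t c : ℝ} (h : ∀ x : X, ‖x‖ = 1 → ∀ η : ℝ, 0 < η →
    ∃ F : Submodule ℝ X, Cof F ∧ ∀ y ∈ F, ‖y‖ = 1 →
      c - η ≤ (‖x + t • y‖ + ‖x - t • y‖) / 2 - 1) :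
    (RealBanach.mk X i1 i2 i3).MidpointModulusGE (RealBanach.mk X i1 i2 i3).norm t c := by
  intro x hx η hη
  obtain ⟨F, hF, h⟩ := h x hx η hη
  exact ⟨(F : Set X), hF.isCof, h⟩

lemma maxMidpointGE_of {t c : ℝ} (h : ∀ x : X, ‖x‖ = 1 → ∀ η : ℝ, 0 < η →
    ∃ F : Submodule ℝ X, Cof F ∧ ∀ y ∈ F, ‖y‖ = 1 →
      c - η ≤ max ‖x + t • y‖ ‖x - t • y‖ - 1) :
    (RealBanach.mk X i1 i2 i3).MaxMidpointModulusGE (RealBanach.mk X i1 i2 i3).norm t c := by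
  intro x hx η hη
  obtain ⟨F, hF, h⟩ := h x hx η hη
  exact ⟨(F : Set X), hF.isCof, h⟩

lemma oneSidedGE_of {t c : ℝ} (h : ∀ x : X, ‖x‖ = 1 → ∀ η : ℝ, 0 < η →
    ∃ F : Submodule ℝ X, Cof F ∧ ∀ y ∈ F, ‖y‖ = 1 → c - η ≤ ‖x + t • y‖ - 1) :
    (RealBanach.mk X i1 i2 i3).OneSidedModulusGE (RealBanach.mk X i1 i2 i3).norm t c := by
  intro x hx η hη
  obtain ⟨F, hF, h⟩ := h x hx η hη
  exact ⟨(F : Set X), hF.isCof, h⟩

lemma midpointLE_of {t c : ℝ} (h : ∀ x : X, ‖x‖ = 1 → ∀ F : Submodule ℝ X, Cof F →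
    ∀ η : ℝ, 0 < η → ∃ y ∈ F, ‖y‖ = 1 ∧ (‖x + t • y‖ + ‖x - t • y‖) / 2 - 1 ≤ c + η) :
    (RealBanach.mk X i1 i2 i3).MidpointModulusLE (RealBanach.mk X i1 i2 i3).norm t c := by
  intro x hx F hF η hη
  obtain ⟨S, rfl, hS⟩ := (isCof_iff F).1 hF
  exact h x hx S hS η hη

lemma oneSidedLE_of {t c : ℝ} (h : ∀ x : X, ‖x‖ = 1 → ∀ F : Submodule ℝ X, Cof F →
    ∀ η : ℝ, 0 < η → ∃ y ∈ F, ‖y‖ = 1 ∧ ‖x + t • y‖ - 1 ≤ c + η) :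
    (RealBanach.mk X i1 i2 i3).OneSidedModulusLE (RealBanach.mk X i1 i2 i3).norm t c := by
  intro x hx F hF η hη
  obtain ⟨S, rfl, hS⟩ := (isCof_iff F).1 hF
  exact h x hx S hS η hη

end Crest.Agent.R125
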