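import Mathlib
import Crest.Prelude.Def_DaugavetL1
import Crest.Agent.R125.Common

/-! The Daugavet property: slices, a finite-codimensional version of Shvydkoy's lemma, and the
resulting asymptotic moduli. -/

set_option autoImplicit false

open Crest.AnalysisR Crest.AnalysisR.L1Subspace Filter Topology

namespace Crest.Agent.R125

variable {X : Type} [NormedAddCommGroup X] [NormedSpace ℝ X]

lemma daug_slice_one (hD : HasDaugavetProperty X) (φ : X →L[ℝ] ℝ) (hφ : ‖φ‖ = 1) (w : X)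
    {δ : ℝ} (hδ : 0 < δ) : ∃ z, ‖z‖ ≤ 1 ∧ 1 - δ < φ z ∧ ‖w‖ + 1 - δ < ‖w + z‖ := by
  by_cases hw : w = 0
  · obtain ⟨z, hz, h⟩ := φ.exists_lt_apply_of_lt_opNorm (r := 1 - δ) (by linarith)
    have key : ∀ z : X, ‖z‖ < 1 → 1 - δ < φ z →
        ∃ z, ‖z‖ ≤ 1 ∧ 1 - δ < φ z ∧ ‖w‖ + 1 - δ < ‖w + z‖ := by
      intro z hz h
      refine ⟨z, hz.le, h, ?_⟩
      have := (le_abs_self _).trans (φ.le_opNorm z)
      rw [hφ, one_mul] at this
      simp only [hw, norm_zero, zero_add]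
      linarith
    rcases le_total 0 (φ z) with h0 | h0
    · exact key z hz (by rwa [Real.norm_eq_abs, abs_of_nonneg h0] at h)
    · exact key (-z) (by simpa using hz) (by
        rw [Real.norm_eq_abs, abs_of_nonpos h0] at h
        simpa using h)
  have hwpos : 0 < ‖w‖ := norm_pos_iff.2 hw
  set δ' := min (δ / 2) (δ * ‖w‖) with hδ'
  have hδ'pos : 0 < δ' := by positivity
  have h1 := hD φ w
  rw [ContinuousLinearMap.norm_smulRight_apply, hφ, one_mul] at h1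
  obtain ⟨z, hz, h⟩ := (ContinuousLinearMap.id ℝ X + φ.smulRight w).exists_lt_apply_of_lt_opNorm
    (r := 1 + ‖w‖ - δ') (by linarith)
  have key : ∀ z : X, ‖z‖ < 1 → 0 ≤ φ z → 1 + ‖w‖ - δ' < ‖z + φ z • w‖ →
      ∃ z, ‖z‖ ≤ 1 ∧ 1 - δ < φ z ∧ ‖w‖ + 1 - δ < ‖w + z‖ := by
    intro z hz h0 h
    have h2 := (le_abs_self _).trans (φ.le_opNorm z)
    rw [hφ, one_mul] at h2
    have h3 : ‖z + φ z • w‖ ≤ ‖z‖ + φ z * ‖w‖ := by
      refine (norm_add_le _ _).trans ?_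
      rw [norm_smul, Real.norm_eq_abs, abs_of_nonneg h0]
    have h4 : (1 - φ z) * ‖w‖ < δ' := by nlinarith
    have h5 : ‖z + φ z • w‖ ≤ ‖w + z‖ + (1 - φ z) * ‖w‖ := by
      have e : z + φ z • w = (w + z) - (1 - φ z) • w := by
        rw [sub_smul, one_smul]; abel
      rw [e]
      refine (norm_sub_le _ _).trans ?_
      rw [norm_smul, Real.norm_eq_abs, abs_of_nonneg (by linarith)]
    refine ⟨z, hz.le, ?_, ?_⟩
    · have := min_le_right (δ / 2) (δ * ‖w‖)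
      have h6 : (1 - φ z) * ‖w‖ < δ * ‖w‖ := by linarith
      have := lt_of_mul_lt_mul_right h6 hwpos.le
      linarith
    · have := min_le_left (δ / 2) (δ * ‖w‖)
      linarith
  simp only [add_apply, ContinuousLinearMap.id_apply,
    ContinuousLinearMap.smulRight_apply] at h
  rcases le_total 0 (φ z) with h0 | h0
  · exact key z hz h0 h
  · refine key (-z) (by simpa using hz) (by simpa using h0) ?_
    rw [map_neg, neg_smul, ← neg_add, norm_neg]
    exact h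

lemma daug_slice [Nontrivial X] (hD : HasDaugavetProperty X) (φ : X →L[ℝ] ℝ) (w : X)
    {δ : ℝ} (hδ : 0 < δ) : ∃ z, ‖z‖ ≤ 1 ∧ ‖φ‖ - δ ≤ φ z ∧ ‖w‖ + 1 - δ < ‖w + z‖ := by
  by_cases hφ : φ = 0
  · obtain ⟨ψ, hψ, -⟩ := exists_dual_vector' ℝ (0 : X)
    obtain ⟨z, h1, -, h3⟩ := daug_slice_one hD ψ hψ w hδ
    exact ⟨z, h1, by simp [hφ, hδ.le], h3⟩
  have hpos : 0 < ‖φ‖ := norm_pos_iff.2 hφ
  obtain ⟨z, h1, h2, h3⟩ := daug_slice_one hD (‖φ‖⁻¹ • φ) (by
    rw [norm_smul, norm_inv, norm_norm, inv_mul_cancel₀ hpos.ne']) w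
    (δ := min δ (δ / ‖φ‖)) (by positivity)
  refine ⟨z, h1, ?_, lt_of_le_of_lt (by linarith [min_le_left δ (δ / ‖φ‖)]) h3⟩
  have h4 := min_le_right δ (δ / ‖φ‖)
  simp only [smul_apply, smul_eq_mul] at h2
  have h5 : 1 - δ / ‖φ‖ < ‖φ‖⁻¹ * φ z := by linarith
  have h6 := mul_lt_mul_of_pos_left h5 hpos
  rw [← mul_assoc, mul_inv_cancel₀ hpos.ne', one_mul, mul_sub, mul_one,
    mul_div_cancel₀ _ hpos.ne'] at h6
  exact h6.le

open scoped RealInnerProductSpace in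
lemma daug_hilbert [Nontrivial X] (hD : HasDaugavetProperty X) {H : Type} [NormedAddCommGroup H]
    [InnerProductSpace ℝ H] [FiniteDimensional ℝ H] (Q : X →L[ℝ] H) (x : X) (hx : ‖x‖ ≤ 1)
    (w : X) {ε : ℝ} (hε : 0 < ε) :
    ∃ z, ‖z‖ ≤ 1 ∧ ‖Q z - Q x‖ < ε ∧ ‖w‖ + 1 - ε < ‖w + z‖ := by
  set A : Set H := {q | ∀ (w : X) (ε : ℝ), 0 < ε →
    ∃ z, ‖z‖ ≤ 1 ∧ ‖Q z - q‖ < ε ∧ ‖w‖ + 1 - ε < ‖w + z‖} with hA
  suffices h : Q x ∈ A from h w ε hε
  have hcl : IsClosed A := by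
    refine isClosed_of_closure_subset fun q hq w ε hε => ?_
    obtain ⟨q', hq', hd⟩ := Metric.mem_closure_iff.1 hq (ε / 2) (half_pos hε)
    obtain ⟨z, h1, h2, h3⟩ := hq' w (ε / 2) (half_pos hε)
    refine ⟨z, h1, ?_, by linarith⟩
    rw [dist_comm, dist_eq_norm] at hd
    have := norm_sub_le_norm_sub_add_norm_sub (Q z) q' q
    linarith
  have hcv : Convex ℝ A := by
    intro q₁ hq₁ q₂ hq₂ a b ha hb hab
    rcases ha.eq_or_lt with rfl | ha
    · rw [zero_add] at hab; simpa [hab] using hq₂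
    rcases hb.eq_or_lt with rfl | hb
    · rw [add_zero] at hab; simpa [hab] using hq₁
    intro w ε hε
    obtain ⟨z₁, h1, h2, h3⟩ := hq₁ (a⁻¹ • w) ε hε
    obtain ⟨z₂, h4, h5, h6⟩ := hq₂ (b⁻¹ • (w + a • z₁)) ε hε
    have e1 : ‖w + a • z₁‖ = a * ‖a⁻¹ • w + z₁‖ := by
      rw [← abs_of_pos ha, ← Real.norm_eq_abs, ← norm_smul, Real.norm_eq_abs, abs_of_pos ha,
        smul_add, smul_smul, mul_inv_cancel₀ ha.ne', one_smul]
    have e2 : ‖w + (a • z₁ + b • z₂)‖ = b * ‖b⁻¹ • (w + a • z₁) + z₂‖ := by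
      rw [← abs_of_pos hb, ← Real.norm_eq_abs, ← norm_smul, Real.norm_eq_abs, abs_of_pos hb,
        smul_add b, smul_smul, mul_inv_cancel₀ hb.ne', one_smul, add_assoc]
    rw [norm_smul, norm_inv, Real.norm_eq_abs, abs_of_pos ha] at h3
    rw [norm_smul, norm_inv, Real.norm_eq_abs, abs_of_pos hb] at h6
    have h3' := mul_lt_mul_of_pos_left h3 ha
    have h6' := mul_lt_mul_of_pos_left h6 hb
    rw [← e1, mul_sub, mul_add, ← mul_assoc, mul_inv_cancel₀ ha.ne'] at h3'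
    rw [← e2, mul_sub, mul_add, ← mul_assoc, mul_inv_cancel₀ hb.ne'] at h6'
    refine ⟨a • z₁ + b • z₂, ?_, ?_, ?_⟩
    · refine (norm_add_le _ _).trans ?_
      rw [norm_smul, norm_smul, Real.norm_eq_abs, Real.norm_eq_abs, abs_of_pos ha, abs_of_pos hb]
      nlinarith
    · have e : Q (a • z₁ + b • z₂) - (a • q₁ + b • q₂) = a • (Q z₁ - q₁) + b • (Q z₂ - q₂) := by
        simp only [map_add, map_smul, smul_sub]; abel
      rw [e]
      refine (norm_add_le _ _).trans_lt ?_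
      rw [norm_smul, norm_smul, Real.norm_eq_abs, Real.norm_eq_abs, abs_of_pos ha, abs_of_pos hb]
      nlinarith
    · have : a * ε + b * ε = ε := by rw [← add_mul, hab, one_mul]
      linarith
  set K := closure (Q '' Metric.closedBall 0 1) with hK
  have hKb : ∀ k ∈ K, ‖k‖ ≤ ‖Q‖ := by
    intro k hk
    have : K ⊆ Metric.closedBall 0 ‖Q‖ := by
      refine closure_minimal ?_ Metric.isClosed_closedBall
      rintro _ ⟨z, hz, rfl⟩
      simp only [mem_closedBall_zero_iff] at hz ⊢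
      exact Q.unit_le_opNorm z hz
    simpa using this hk
  have hKc : IsCompact K := Metric.isCompact_of_isClosed_isBounded isClosed_closure
    ((Metric.isBounded_closedBall (x := (0 : H)) (r := ‖Q‖)).subset fun k hk => by
      simpa using hKb k hk)
  have hQK : ∀ z : X, ‖z‖ ≤ 1 → Q z ∈ K := fun z hz => subset_closure ⟨z, by simpa using hz, rfl⟩
  have hfar : ∀ p : H, ∃ q ∈ A, q ∈ K ∧ ∀ k ∈ K, ‖k - p‖ ≤ ‖q - p‖ := by
    intro p
    obtain ⟨q, hq, hmax⟩ := hKc.exists_isMaxOn ⟨_, hQK x hx⟩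
      (f := fun k => ‖k - p‖) (by fun_prop)
    refine ⟨q, fun w ε hε => ?_, hq, fun k hk => hmax hk⟩
    set φ : X →L[ℝ] ℝ := (innerSL ℝ (q - p)).comp Q with hφ
    have hφq : ⟪q - p, q⟫ ≤ ‖φ‖ := by
      have : K ⊆ {k | ⟪q - p, k⟫ ≤ ‖φ‖} := by
        refine closure_minimal ?_ (isClosed_le (by fun_prop) continuous_const)
        rintro _ ⟨z, hz, rfl⟩
        simp only [mem_closedBall_zero_iff] at hz
        exact (le_abs_self _).trans (φ.unit_le_opNorm z hz)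
      exact this hq
    obtain ⟨z, h1, h2, h3⟩ := daug_slice hD φ w (δ := min ε (ε ^ 2 / 4)) (by positivity)
    refine ⟨z, h1, ?_, lt_of_le_of_lt (by linarith [min_le_left ε (ε ^ 2 / 4)]) h3⟩
    have h4 : ‖Q z - p‖ ≤ ‖q - p‖ := hmax (hQK z h1)
    have h5 := pow_le_pow_left₀ (norm_nonneg _) h4 2
    have e : Q z - p = (q - p) + (Q z - q) := by abel
    rw [e, norm_add_sq_real, inner_sub_right] at h5
    have h6 : φ z = ⟪q - p, Q z⟫ := rfl
    have h7 := min_le_right ε (ε ^ 2 / 4)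
    have h8 : ‖Q z - q‖ ^ 2 < ε ^ 2 := by nlinarith [sq_pos_of_pos hε]
    exact lt_of_pow_lt_pow_left₀ 2 hε.le h8
  by_contra hxA
  obtain ⟨f, u, hf, hu⟩ := geometric_hahn_banach_closed_point hcv hcl hxA
  obtain ⟨v, rfl⟩ := (InnerProductSpace.toDual ℝ H).surjective f
  simp only [InnerProductSpace.toDual_apply_apply] at hf hu
  obtain ⟨R, hR⟩ := exists_nat_gt (‖Q‖ ^ 2 / (⟪v, Q x⟫ - u))
  obtain ⟨q, hqA, hqK, hq⟩ := hfar (-((R : ℝ) • v))
  have h1 := pow_le_pow_left₀ (norm_nonneg _) (hq _ (hQK x hx)) 2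
  rw [sub_neg_eq_add, sub_neg_eq_add, norm_add_sq_real, norm_add_sq_real, inner_smul_right,
    inner_smul_right, real_inner_comm v, real_inner_comm v] at h1
  have h2 := pow_le_pow_left₀ (norm_nonneg _) (hKb q hqK) 2
  have h3 := hf q hqA
  rw [div_lt_iff₀ (by linarith)] at hR
  have h4 : (0 : ℝ) ≤ R := Nat.cast_nonneg R
  nlinarith [sq_nonneg ‖Q x‖, mul_le_mul_of_nonneg_left h3.le h4, sq_nonneg ‖Q‖]

lemma daug_cof [Nontrivial X] (hD : HasDaugavetProperty X) {F : Submodule ℝ X} (hF : Cof F)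
    (x : X) (hx : ‖x‖ ≤ 1) {ε : ℝ} (hε : 0 < ε) :
    ∃ z, ‖z‖ ≤ 1 ∧ ‖x‖ + 1 - ε < ‖z - x‖ ∧ ∃ y ∈ F, ‖z - x - y‖ < ε := by
  obtain ⟨Y, _, _, _, Q, -, hQ⟩ := hF.exists_quot
  set e := toEuclidean (E := Y) with he
  set C := ‖(e.symm : EuclideanSpace ℝ (Fin (Module.finrank ℝ Y)) →L[ℝ] Y)‖ + 1 with hC
  have hCpos : 0 < C := by positivity
  obtain ⟨z, h1, h2, h3⟩ := daug_hilbert hD ((e : Y →L[ℝ] EuclideanSpace ℝ (Fin (Module.finrank ℝ Y))).comp Q) x hx (-x)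
    (ε := min ε (ε / C)) (by positivity)
  refine ⟨z, h1, ?_, hQ _ _ ?_⟩
  · rw [norm_neg, neg_add_eq_sub] at h3
    linarith [min_le_left ε (ε / C)]
  · have h4 := (e.symm : EuclideanSpace ℝ (Fin (Module.finrank ℝ Y)) →L[ℝ] Y).le_opNorm (e (Q (z - x)))
    simp only [ContinuousLinearEquiv.coe_coe, ContinuousLinearEquiv.symm_apply_apply] at h4
    have h5 : ‖e (Q (z - x))‖ < ε / C := by
      refine lt_of_lt_of_le ?_ (min_le_right ε (ε / C))
      simpa using h2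
    rw [lt_div_iff₀ hCpos] at h5
    nlinarith [norm_nonneg (e (Q (z - x)))]

lemma daug_not_auc [Nontrivial X] (hD : HasDaugavetProperty X) (N : X → ℝ) (hN : EqNorm N) :
    ¬ AUC N := by
  refine not_auc_of_tree (θ := 1 / 2) (m := 1 / 2) (M := 1) (by norm_num) (by norm_num)
    {x | 1 / 2 ≤ ‖x‖ ∧ ‖x‖ ≤ 1} ?_ (fun x hx => hx) ?_ N hN
  · obtain ⟨x, hx⟩ := exists_norm_eq X zero_le_one
    exact ⟨x, by simp only [Set.mem_ofPred_eq, hx]; norm_num⟩
  · rintro x ⟨h1, h2⟩ F hF ε hε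
    obtain ⟨z, h3, h4, y, hy, h5⟩ := daug_cof hD hF x h2 (ε := min ε (1 / 2)) (by positivity)
    have h6 := min_le_left ε (1 / 2)
    have h7 := min_le_right ε (1 / 2)
    have h8 := norm_sub_le z x
    have h9 := norm_sub_norm_le (z - x) y
    refine ⟨y, hy, z, ⟨by linarith, h3⟩, by linarith, ?_⟩
    rw [norm_sub_rev, ← sub_sub]
    linarith

lemma daug_upper [Nontrivial X] (hD : HasDaugavetProperty X) {t : ℝ} (ht : 0 < t)
    (x : X) (hx : ‖x‖ = 1) {F : Submodule ℝ X} (hF : Cof F) {η : ℝ} (hη : 0 < η) :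
    ∃ y ∈ F, ‖y‖ = 1 ∧ ‖x + t • y‖ - 1 ≤ max 0 (t - 2) + η := by
  obtain ⟨z, h3, h4, y, hy, h5⟩ := daug_cof hD hF x hx.le (ε := min (η / 3) (1 / 2))
    (by positivity)
  have h6 := min_le_left (η / 3) (1 / 2)
  have h7 := min_le_right (η / 3) (1 / 2)
  have h9 := norm_sub_norm_le (z - x) y
  have hr : 2 - 2 * η / 3 ≤ ‖y‖ := by linarith
  have hr0 : 0 < ‖y‖ := by linarith
  have hxy : ‖x + y‖ ≤ 1 + η / 3 := by
    have e : x + y = z - (z - x - y) := by abel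
    rw [e]
    have := norm_sub_le z (z - x - y)
    linarith
  refine ⟨‖y‖⁻¹ • y, F.smul_mem _ hy, norm_smul_inv_norm (norm_pos_iff.1 hr0), ?_⟩
  have hm1 := le_max_left 0 (t - 2)
  have hm2 := le_max_right 0 (t - 2)
  set l := t / ‖y‖ with hl
  have hl0 : 0 < l := by positivity
  rw [smul_smul, ← div_eq_mul_inv, ← hl]
  rcases le_total l 1 with h | h
  · have e : x + l • y = (1 - l) • x + l • (x + y) := by
      rw [sub_smul, one_smul, smul_add]; abel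
    have h1 := norm_add_le ((1 - l) • x) (l • (x + y))
    rw [← e, norm_smul, norm_smul, Real.norm_eq_abs, Real.norm_eq_abs,
      abs_of_nonneg (sub_nonneg.2 h), abs_of_pos hl0, hx] at h1
    nlinarith
  · have e : x + l • y = (x + y) + (l - 1) • y := by
      rw [sub_smul, one_smul]; abel
    have h1 := norm_add_le (x + y) ((l - 1) • y)
    rw [← e, norm_smul, Real.norm_eq_abs, abs_of_nonneg (sub_nonneg.2 h), sub_mul, hl,
      div_mul_cancel₀ _ hr0.ne'] at h1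
    rw [hl]
    linarith

end Crest.Agent.R125
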