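import Mathlib
import Crest.Prelude.Def_Diamond
import Crest.Agent.R125.Common

/-! Distortion of countably branching diamonds under an asymptotic quadratic midpoint
inequality. -/

set_option autoImplicit false

open Crest.AnalysisR Filter Topology

namespace Crest.Agent.R125

lemma diamond_adj_or_eq (k : ℕ) (e : DiamondEdge k) :
    (diamondGraph k).Adj (diamondSrc k e) (diamondTgt k e) ∨ diamondSrc k e = diamondTgt k e := by
  by_cases h : diamondSrc k e = diamondTgt k e
  · exact Or.inr h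
  · exact Or.inl ((SimpleGraph.fromRel_adj _ _ _).2 ⟨h, Or.inl ⟨e, rfl, rfl⟩⟩)

lemma diamond_dist_edge (k : ℕ) (e : DiamondEdge k) :
    (diamondGraph k).dist (diamondSrc k e) (diamondTgt k e) ≤ 1 := by
  rcases diamond_adj_or_eq k e with h | h
  · exact (SimpleGraph.dist_eq_one_iff_adj.2 h).le
  · rw [h, SimpleGraph.dist_self]; exact zero_le_one

lemma diamond_reach_edge (k : ℕ) (e : DiamondEdge k) :
    (diamondGraph k).Reachable (diamondSrc k e) (diamondTgt k e) := by
  rcases diamond_adj_or_eq k e with h | h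
  · exact h.reachable
  · rw [h]

lemma diamond_adj_iff {k : ℕ} {u v : DiamondVertex k} (h : (diamondGraph k).Adj u v) :
    ∃ e, (diamondSrc k e = u ∧ diamondTgt k e = v) ∨ (diamondSrc k e = v ∧ diamondTgt k e = u) := by
  rcases ((SimpleGraph.fromRel_adj _ _ _).1 h).2 with ⟨e, h⟩ | ⟨e, h⟩
  · exact ⟨e, Or.inl h⟩
  · exact ⟨e, Or.inr h⟩

lemma diamond_connected : ∀ k, (diamondGraph k).Connected
  | 0 => by
    have h := diamond_reach_edge 0 ()
    have : Nonempty (DiamondVertex 0) := ⟨false⟩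
    refine ⟨fun u v => ?_⟩
    cases u <;> cases v
    · rfl
    · exact h
    · exact h.symm
    · rfl
  | k + 1 => by
    have ih := diamond_connected k
    have hedge : ∀ e : DiamondEdge k, (diamondGraph (k + 1)).Reachable
        (Sum.inl (diamondSrc k e)) (Sum.inl (diamondTgt k e)) := fun e =>
      (diamond_reach_edge (k + 1) (e, 0, false)).trans (diamond_reach_edge (k + 1) (e, 0, true))
    have hinl : ∀ u v : DiamondVertex k, (diamondGraph (k + 1)).Reachable
        (Sum.inl u) (Sum.inl v) := by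
      intro u v
      obtain ⟨p⟩ := ih u v
      induction p with
      | nil => rfl
      | cons h p ih' =>
        refine SimpleGraph.Reachable.trans ?_ ih'
        obtain ⟨e, ⟨rfl, rfl⟩ | ⟨rfl, rfl⟩⟩ := diamond_adj_iff h
        · exact hedge e
        · exact (hedge e).symm
    have hall : ∀ w : DiamondVertex (k + 1), ∃ u, (diamondGraph (k + 1)).Reachable
        (Sum.inl u) w := by
      rintro (u | ⟨e, i⟩)
      · exact ⟨u, .refl _⟩
      · exact ⟨_, diamond_reach_edge (k + 1) (e, i, false)⟩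
    obtain ⟨u₀⟩ := ih.nonempty
    have : Nonempty (DiamondVertex (k + 1)) := ⟨Sum.inl u₀⟩
    refine ⟨fun a b => ?_⟩
    obtain ⟨u, hu⟩ := hall a
    obtain ⟨v, hv⟩ := hall b
    exact (hu.symm.trans (hinl u v)).trans hv

lemma le_add_dist_of_lip {V : Type} {G : SimpleGraph V} (hG : G.Connected) (φ : V → ℕ)
    (hφ : ∀ a b, G.Adj a b → φ b ≤ φ a + 1) (a b : V) : φ b ≤ φ a + G.dist a b := by
  obtain ⟨p, hp⟩ := hG.exists_walk_length_eq_dist a b
  rw [← hp]
  clear hp
  induction p with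
  | nil => simp
  | cons h p ih =>
    have := hφ _ _ h
    simp only [SimpleGraph.Walk.length_cons]
    omega

lemma diamond_dist_inl (k : ℕ) (u v : DiamondVertex k) :
    2 * (diamondGraph k).dist u v ≤ (diamondGraph (k + 1)).dist (Sum.inl u) (Sum.inl v) := by
  have hc := diamond_connected k
  have key := le_add_dist_of_lip (diamond_connected (k + 1))
    (fun w => Sum.elim (fun w => 2 * (diamondGraph k).dist u w)
      (fun p : DiamondEdge k × ℕ => (diamondGraph k).dist u (diamondSrc k p.1) +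
        (diamondGraph k).dist u (diamondTgt k p.1)) w) (fun a b h => by
      obtain ⟨⟨e, i, c⟩, h⟩ := diamond_adj_iff h
      have h1 := diamond_dist_edge k e
      have h2 := hc.dist_triangle (u := u) (v := diamondSrc k e) (w := diamondTgt k e)
      have h3 := hc.dist_triangle (u := u) (v := diamondTgt k e) (w := diamondSrc k e)
      rw [SimpleGraph.dist_comm (u := diamondTgt k e)] at h3
      cases c <;> rcases h with ⟨rfl, rfl⟩ | ⟨rfl, rfl⟩ <;>
        simp only [diamondSrc, diamondTgt, cond_true, cond_false, Sum.elim_inl, Sum.elim_inr] <;>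
        omega) (Sum.inl u) (Sum.inl v)
  simpa using key

lemma diamond_dist_mid (k : ℕ) (e : DiamondEdge k) {i j : ℕ} (hij : i ≠ j) :
    2 ≤ (diamondGraph (k + 1)).dist (Sum.inr (e, i)) (Sum.inr (e, j)) := by
  refine (diamond_connected (k + 1)).one_lt_dist_of_ne_of_not_adj ?_ ?_
  · intro h
    have := Sum.inr.inj h
    exact hij (congrArg Prod.snd this)
  · intro h
    obtain ⟨⟨e', i', c⟩, h⟩ := diamond_adj_iff h
    cases c <;> rcases h with ⟨h1, h2⟩ | ⟨h1, h2⟩ <;>
      simp only [diamondSrc, diamondTgt, cond_true, cond_false] at h1 h2 <;>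
      first | exact Sum.inl_ne_inr h1 | exact Sum.inl_ne_inr h2

variable {X : Type} [NormedAddCommGroup X] [NormedSpace ℝ X]

/-- asymptotic quadratic midpoint inequality -/
def QP (X : Type) [NormedAddCommGroup X] [NormedSpace ℝ X] : Prop :=
  ∀ (x : X) (η : ℝ), 0 < η → ∃ F : Submodule ℝ X, Cof F ∧ ∀ y ∈ F,
    ‖x‖ ^ 2 + ‖y‖ ^ 2 / 4 - η ≤ (‖x + y‖ ^ 2 + ‖x - y‖ ^ 2) / 2

lemma QP.midpoints (hX : QP X) (u v : X) (m : ℕ → X) {s b : ℝ} (hs : 0 < s)
    (h1 : ∀ i, ‖u - m i‖ ≤ b) (h2 : ∀ i, ‖m i - v‖ ≤ b)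
    (h3 : ∀ i j, i ≠ j → s * 2 ≤ ‖m i - m j‖) : ‖u - v‖ ^ 2 ≤ 4 * b ^ 2 - s ^ 2 := by
  have hb : 0 ≤ b := (norm_nonneg _).trans (h1 0)
  set x := (1 / 2 : ℝ) • (u - v) with hx
  have hxn : ‖x‖ = ‖u - v‖ / 2 := by
    rw [hx, norm_smul, Real.norm_eq_abs, abs_of_pos (by norm_num)]; ring
  have key : ∀ ε ∈ Set.Ioo 0 s, ‖x‖ ^ 2 + (s - ε) ^ 2 / 4 - ε ≤ (b + ε) ^ 2 := by
    rintro ε ⟨hε, hεs⟩
    obtain ⟨F, hF, h⟩ := hX x ε hε
    obtain ⟨i, j, hij, y, hy, hd⟩ := hF.exists_sub_near (fun i => m i - v) b h2 hε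
    simp only [sub_sub_sub_cancel_right] at hd
    have h4 := h ((1 / 2 : ℝ) • y) (F.smul_mem _ hy)
    have hyn : ‖(1 / 2 : ℝ) • y‖ = ‖y‖ / 2 := by
      rw [norm_smul, Real.norm_eq_abs, abs_of_pos (by norm_num)]; ring
    have h5 : s - ε ≤ ‖(1 / 2 : ℝ) • y‖ := by
      have := norm_sub_norm_le (m i - m j) y
      have := h3 i j hij
      rw [hyn]; linarith
    have h6 : ‖x + (1 / 2 : ℝ) • y‖ ≤ b + ε := by
      have e : x + (1 / 2 : ℝ) • y =
          (1 / 2 : ℝ) • ((u - m j) + (m i - v) - (m i - m j - y)) := by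
        rw [hx, ← smul_add]; congr 1; abel
      rw [e, norm_smul, Real.norm_eq_abs, abs_of_pos (by norm_num)]
      have := norm_sub_le ((u - m j) + (m i - v)) (m i - m j - y)
      have := norm_add_le (u - m j) (m i - v)
      linarith [h1 j, h2 i]
    have h7 : ‖x - (1 / 2 : ℝ) • y‖ ≤ b + ε := by
      have e : x - (1 / 2 : ℝ) • y =
          (1 / 2 : ℝ) • ((u - m i) + (m j - v) + (m i - m j - y)) := by
        rw [hx, ← smul_sub]; congr 1; abel
      rw [e, norm_smul, Real.norm_eq_abs, abs_of_pos (by norm_num)]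
      have := norm_add_le ((u - m i) + (m j - v)) (m i - m j - y)
      have := norm_add_le (u - m i) (m j - v)
      linarith [h1 i, h2 j]
    have h8 := pow_le_pow_left₀ (by linarith) h5 2
    have h9 := pow_le_pow_left₀ (norm_nonneg _) h6 2
    have h10 := pow_le_pow_left₀ (norm_nonneg _) h7 2
    linarith
  have hlim : ‖x‖ ^ 2 + (s - 0) ^ 2 / 4 - 0 ≤ (b + 0) ^ 2 := by
    refine le_of_tendsto_of_tendsto (b := 𝓝[>] (0 : ℝ))
      (f := fun ε => ‖x‖ ^ 2 + (s - ε) ^ 2 / 4 - ε) (g := fun ε => (b + ε) ^ 2) ?_ ?_ ?_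
    · exact (Continuous.tendsto (by fun_prop) 0).mono_left nhdsWithin_le_nhds
    · exact (Continuous.tendsto (by fun_prop) 0).mono_left nhdsWithin_le_nhds
    · filter_upwards [Ioo_mem_nhdsGT hs] with ε hε using key ε hε
  rw [hxn] at hlim
  nlinarith

lemma QP.diamond_aux (hX : QP X) : ∀ (k : ℕ) (f : DiamondVertex k → X) (s b : ℝ), 0 < s →
    (∀ u v, s * ((diamondGraph k).dist u v : ℝ) ≤ ‖f u - f v‖) →
    (∀ e, ‖f (diamondSrc k e) - f (diamondTgt k e)‖ ≤ b) → s ^ 2 * (1 + (k : ℝ) / 4) ≤ b ^ 2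
  | 0, f, s, b, hs, h1, h2 => by
    have h3 := h1 false true
    have h4 := h2 ()
    have h5 : (diamondGraph 0).dist false true = 1 :=
      SimpleGraph.dist_eq_one_iff_adj.2 ((SimpleGraph.fromRel_adj _ _ _).2
        ⟨Bool.false_ne_true, Or.inl ⟨(), rfl, rfl⟩⟩)
    rw [h5] at h3
    simp only [Nat.cast_one, mul_one] at h3
    have := pow_le_pow_left₀ hs.le (h3.trans h4) 2
    simpa using this
  | k + 1, f, s, b, hs, h1, h2 => by
    have h3 : ∀ e : DiamondEdge k, ‖f (Sum.inl (diamondSrc k e)) - f (Sum.inl (diamondTgt k e))‖ ^ 2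
        ≤ 4 * b ^ 2 - s ^ 2 := by
      intro e
      refine hX.midpoints _ _ (fun i => f (Sum.inr (e, i))) hs (fun i => h2 (e, i, false))
        (fun i => h2 (e, i, true)) fun i j hij => le_trans ?_ (h1 _ _)
      have : (2 : ℝ) ≤ (diamondGraph (k + 1)).dist (Sum.inr (e, i)) (Sum.inr (e, j)) := by
        exact_mod_cast diamond_dist_mid k e hij
      gcongr
    have hne : ∀ k, Nonempty (DiamondEdge k) := by
      intro k
      induction k with
      | zero => exact ⟨()⟩
      | succ k ih => obtain ⟨e⟩ := ih; exact ⟨(e, 0, false)⟩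
    obtain ⟨e₀⟩ := hne k
    have h4 : 0 ≤ 4 * b ^ 2 - s ^ 2 := (sq_nonneg _).trans (h3 e₀)
    have h5 := QP.diamond_aux hX k (fun u => f (Sum.inl u)) (2 * s)
      (Real.sqrt (4 * b ^ 2 - s ^ 2)) (by positivity) (fun u v => by
        refine le_trans ?_ (h1 (Sum.inl u) (Sum.inl v))
        have : (2 : ℝ) * (diamondGraph k).dist u v ≤
            (diamondGraph (k + 1)).dist (Sum.inl u) (Sum.inl v) := by
          exact_mod_cast diamond_dist_inl k u v
        nlinarith) (fun e => Real.le_sqrt_of_sq_le (h3 e))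
    rw [Real.sq_sqrt h4] at h5
    push_cast
    nlinarith

lemma QP.diamond (hX : QP X) (k : ℕ) (f : DiamondVertex k → X) (D s : ℝ) (hs : 0 < s)
    (h : ∀ u v : DiamondVertex k, s * (diamondDist k u v : ℝ) ≤ ‖f u - f v‖ ∧
      ‖f u - f v‖ ≤ D * s * (diamondDist k u v : ℝ)) : 1 + (k : ℝ) / 4 ≤ D ^ 2 := by
  have h1 := hX.diamond_aux k f s (|D| * s) hs (fun u v => (h u v).1) (fun e => by
    refine (h _ _).2.trans ?_
    have h2 : (diamondDist k (diamondSrc k e) (diamondTgt k e) : ℝ) ≤ 1 := by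
      exact_mod_cast diamond_dist_edge k e
    calc D * s * (diamondDist k (diamondSrc k e) (diamondTgt k e) : ℝ)
        ≤ |D| * s * (diamondDist k (diamondSrc k e) (diamondTgt k e) : ℝ) := by
          gcongr; exact le_abs_self D
      _ ≤ |D| * s * 1 := by gcongr
      _ = _ := mul_one _)
  rw [mul_pow, sq_abs, mul_comm] at h1
  exact le_of_mul_le_mul_right h1 (by positivity)

end Crest.Agent.R125
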