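import Mathlib
import Crest.Agent.R125.Diamond

/-! `ℓ²`-sums: reflexivity, separability and the quadratic midpoint inequality. -/

set_option autoImplicit false

open Crest.AnalysisR Filter Topology

namespace Crest.Agent.R125

/-- reflexivity, unbundled -/
def Refl (X : Type) [NormedAddCommGroup X] [NormedSpace ℝ X] : Prop :=
  ∀ Φ : StrongDual ℝ (StrongDual ℝ X), ∃ x : X, ∀ φ : StrongDual ℝ X, Φ φ = φ x

lemma Refl.surjective {X : Type} [NormedAddCommGroup X] [NormedSpace ℝ X] (h : Refl X) :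
    Function.Surjective (NormedSpace.inclusionInDoubleDual ℝ X) := by
  intro Φ
  obtain ⟨x, hx⟩ := h Φ
  exact ⟨x, by ext φ; exact (hx φ).symm⟩

lemma refl_hilbert (H : Type) [NormedAddCommGroup H] [InnerProductSpace ℝ H] [CompleteSpace H] :
    Refl H := by
  intro Φ
  obtain ⟨x, hx⟩ := (InnerProductSpace.toDual ℝ H).surjective (Φ.comp (innerSL ℝ (E := H)))
  refine ⟨x, fun φ => ?_⟩
  obtain ⟨v, rfl⟩ := (InnerProductSpace.toDual ℝ H).surjective φ
  have := DFunLike.congr_fun hx v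
  simp only [InnerProductSpace.toDual_apply_apply] at this ⊢
  rw [real_inner_comm, this]
  rfl

lemma Refl.of_equiv {X Y : Type} [NormedAddCommGroup X] [NormedSpace ℝ X] [NormedAddCommGroup Y]
    [NormedSpace ℝ Y] (h : Refl X) (e : X ≃L[ℝ] Y) : Refl Y := by
  intro Φ
  obtain ⟨x, hx⟩ := h (Φ.comp ((ContinuousLinearMap.compL ℝ Y X ℝ).flip (e.symm : Y →L[ℝ] X)))
  refine ⟨e x, fun φ => ?_⟩
  have := hx (φ.comp (e : X →L[ℝ] Y))
  simp only [ContinuousLinearMap.comp_apply, ContinuousLinearMap.flip_apply,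
    ContinuousLinearMap.compL_apply, ContinuousLinearEquiv.coe_coe] at this
  rw [← this]
  congr 1
  ext y
  simp

section sum
variable {ι : Type} {E : ι → Type} [∀ n, NormedAddCommGroup (E n)]

lemma lp2_hasSum (f : lp E 2) : HasSum (fun i => ‖f i‖ ^ 2) (‖f‖ ^ 2) := by
  have := lp.hasSum_norm (p := 2) (by norm_num) f
  simpa using this

lemma lp2_sum_le (f : lp E 2) (s : Finset ι) : ∑ i ∈ s, ‖f i‖ ^ 2 ≤ ‖f‖ ^ 2 :=
  sum_le_hasSum s (fun _ _ => sq_nonneg _) (lp2_hasSum f)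

lemma lp2_mem {f : ∀ i, E i} {C : ℝ} (h : ∀ s : Finset ι, ∑ i ∈ s, ‖f i‖ ^ 2 ≤ C) :
    Memℓp f 2 := by
  refine memℓp_gen' (C := C) fun s => ?_
  simpa using h s

variable [∀ n, NormedSpace ℝ (E n)]

lemma le_sq_of_le_mul_sqrt {S C : ℝ} (hS : 0 ≤ S) (h : S ≤ C * Real.sqrt S) : S ≤ C ^ 2 := by
  have h1 := Real.sq_sqrt hS
  have h2 := Real.sqrt_nonneg S
  nlinarith [sq_nonneg (Real.sqrt S - C)]

lemma refl_lp2 (h : ∀ n, Refl (E n)) : Refl (lp E 2) := by
  classical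
  intro Φ
  choose x hx using fun n => h n (Φ.comp ((ContinuousLinearMap.compL ℝ (lp E 2) (E n) ℝ).flip
    (lp.evalCLM ℝ E 2 n)))
  have hx' : ∀ n (ψ : StrongDual ℝ (E n)), Φ (ψ.comp (lp.evalCLM ℝ E 2 n)) = ψ (x n) :=
    fun n ψ => hx n ψ
  have hmem : Memℓp x 2 := by
    refine lp2_mem (C := ‖Φ‖ ^ 2) fun s => ?_
    choose ψ hψ hψx using fun n => exists_dual_vector'' ℝ (x n)
    set φ : StrongDual ℝ (lp E 2) := ∑ n ∈ s, ‖x n‖ • (ψ n).comp (lp.evalCLM ℝ E 2 n) with hφ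
    have h1 : Φ φ = ∑ n ∈ s, ‖x n‖ ^ 2 := by
      rw [hφ, map_sum]
      refine Finset.sum_congr rfl fun n _ => ?_
      rw [map_smul, hx', hψx]
      simp [sq]
    have h2 : ‖φ‖ ≤ Real.sqrt (∑ n ∈ s, ‖x n‖ ^ 2) := by
      refine ContinuousLinearMap.opNorm_le_bound _ (Real.sqrt_nonneg _) fun y => ?_
      have h3 : ‖φ y‖ ≤ ∑ n ∈ s, ‖x n‖ * ‖y n‖ := by
        rw [hφ, sum_apply]
        refine (norm_sum_le _ _).trans (Finset.sum_le_sum fun n _ => ?_)
        rw [smul_apply, norm_smul, norm_norm]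
        refine mul_le_mul_of_nonneg_left ?_ (norm_nonneg _)
        exact ((ψ n).le_opNorm (y n)).trans (mul_le_of_le_one_left (norm_nonneg _) (hψ n))
      refine h3.trans ((Real.sum_mul_le_sqrt_mul_sqrt s _ _).trans ?_)
      refine mul_le_mul_of_nonneg_left ?_ (Real.sqrt_nonneg _)
      exact Real.sqrt_le_iff.2 ⟨norm_nonneg _, lp2_sum_le y s⟩
    refine le_sq_of_le_mul_sqrt (Finset.sum_nonneg fun _ _ => sq_nonneg _) ?_
    calc _ = Φ φ := h1.symm
      _ ≤ ‖Φ‖ * ‖φ‖ := (le_abs_self _).trans (Φ.le_opNorm φ)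
      _ ≤ _ := mul_le_mul_of_nonneg_left h2 (ContinuousLinearMap.opNorm_nonneg Φ)
  refine ⟨⟨x, hmem⟩, fun φ => ?_⟩
  set ψ : ∀ n, StrongDual ℝ (E n) := fun n => φ.comp (lp.singleContinuousLinearMap ℝ E 2 n)
    with hψ
  have hψmem : Memℓp ψ 2 := by
    refine lp2_mem (C := (2 * ‖φ‖) ^ 2) fun s => ?_
    have hy : ∀ n, ∃ y : E n, ‖y‖ ≤ 1 ∧ ‖ψ n‖ ≤ 2 * ψ n y := by
      intro n
      by_cases h0 : ψ n = 0
      · exact ⟨0, by simp, by simp [h0]⟩
      obtain ⟨y, hy, h1⟩ := (ψ n).exists_lt_apply_of_lt_opNorm (r := ‖ψ n‖ / 2)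
        (half_lt_self (norm_pos_iff.2 h0))
      rcases le_total 0 (ψ n y) with h2 | h2
      · rw [Real.norm_eq_abs, abs_of_nonneg h2] at h1
        exact ⟨y, hy.le, by linarith⟩
      · rw [Real.norm_eq_abs, abs_of_nonpos h2] at h1
        exact ⟨-y, by simpa using hy.le, by rw [map_neg]; linarith⟩
    choose y hy1 hy2 using hy
    set z : lp E 2 := ∑ n ∈ s, lp.single 2 n (‖ψ n‖ • y n) with hz
    have h1 : ‖z‖ ≤ Real.sqrt (∑ n ∈ s, ‖ψ n‖ ^ 2) := by
      refine Real.le_sqrt_of_sq_le ?_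
      have := lp.norm_sum_single (p := 2) (by norm_num) (fun n => ‖ψ n‖ • y n) s
      simp only [ENNReal.toReal_ofNat, Real.rpow_ofNat] at this
      rw [hz, this]
      refine Finset.sum_le_sum fun n _ => pow_le_pow_left₀ (norm_nonneg _) ?_ 2
      rw [norm_smul, norm_norm]
      exact mul_le_of_le_one_right (norm_nonneg _) (hy1 n)
    have h2 : ∑ n ∈ s, ‖ψ n‖ ^ 2 ≤ 2 * φ z := by
      rw [hz, map_sum, Finset.mul_sum]
      refine Finset.sum_le_sum fun n _ => ?_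
      have : φ (lp.single 2 n (‖ψ n‖ • y n)) = ‖ψ n‖ * ψ n (y n) := by
        change ψ n (‖ψ n‖ • y n) = _
        rw [map_smul, smul_eq_mul]
      rw [this]
      nlinarith [hy2 n, norm_nonneg (ψ n)]
    refine le_sq_of_le_mul_sqrt (Finset.sum_nonneg fun _ _ => sq_nonneg _) ?_
    have h3 := (le_abs_self _).trans (φ.le_opNorm z)
    nlinarith [norm_nonneg φ]
  set D := lp.dualPairing (E := fun n => StrongDual ℝ (E n)) (F := E) 2 2
    (fun n => ContinuousLinearMap.id ℝ (StrongDual ℝ (E n))) (K := 1)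
    (fun n => by simpa using ContinuousLinearMap.norm_id_le) with hD
  have hDapp : ∀ (χ : lp (fun n => StrongDual ℝ (E n)) 2) (y : lp E 2),
      D χ y = ∑' n, χ n (y n) := fun χ y => rfl
  have hφy : ∀ y : lp E 2, HasSum (fun n => ψ n (y n)) (φ y) := fun y =>
    (lp.hasSum_single (by simp) y).mapL φ
  have h1 : D ⟨ψ, hψmem⟩ = φ := by
    ext1 y
    rw [hDapp]
    exact (hφy y).tsum_eq
  have h2 : ∀ n, D (lp.single 2 n (ψ n)) = (ψ n).comp (lp.evalCLM ℝ E 2 n) := by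
    intro n
    ext1 y
    rw [hDapp, tsum_eq_single n]
    · rw [lp.single_apply_self]; rfl
    · intro m hm
      rw [lp.single_apply_ne _ _ _ hm]; rfl
  have h3 := ((lp.hasSum_single (by simp)
    (⟨ψ, hψmem⟩ : lp (fun n => StrongDual ℝ (E n)) 2)).mapL D).mapL Φ
  simp only [h1, h2, hx'] at h3
  exact h3.unique (hφy ⟨x, hmem⟩)

lemma separable_lp2 [Countable ι] (h : ∀ n, TopologicalSpace.SeparableSpace (E n)) :
    TopologicalSpace.SeparableSpace (lp E 2) := by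
  classical
  rw [← TopologicalSpace.isSeparable_univ_iff]
  have h1 : TopologicalSpace.IsSeparable
      (⋃ n, Set.range (lp.singleContinuousLinearMap ℝ E 2 n)) :=
    TopologicalSpace.IsSeparable.iUnion fun n =>
      TopologicalSpace.isSeparable_range (lp.singleContinuousLinearMap ℝ E 2 n).continuous
  refine (h1.span (R := ℝ)).closure.mono fun f _ => ?_
  refine mem_closure_of_tendsto (lp.hasSum_single (by simp) f) (Eventually.of_forall fun s => ?_)
  exact Submodule.sum_mem _ fun n _ =>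
    Submodule.subset_span (Set.mem_iUnion.2 ⟨n, f n, rfl⟩)

lemma qp_lp2 (h : ∀ n, QP (E n)) : QP (lp E 2) := by
  classical
  intro x η hη
  obtain ⟨s, hs⟩ : ∃ s : Finset ι, ‖x‖ ^ 2 - η / 2 < ∑ n ∈ s, ‖x n‖ ^ 2 :=
    ((lp2_hasSum x).eventually (lt_mem_nhds (by linarith))).exists
  set η' := η / (2 * (s.card + 1)) with hη'
  choose F hF hF' using fun n => h n (x n) η' (by positivity)
  have hcl := fun n => (hF n).1
  have hfd := fun n => (hF n).2
  set T : lp E 2 →L[ℝ] (∀ n : s, E n ⧸ F n) := ContinuousLinearMap.pi fun n =>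
    ((F n).mkQ.mkContinuous 1 (fun x => by
      simpa using Submodule.Quotient.norm_mk_le (F n) x)).comp (lp.evalCLM ℝ E 2 n) with hT
  refine ⟨_, cof_ker T, fun y hy => ?_⟩
  have hy' : ∀ n ∈ s, y n ∈ F n := fun n hn =>
    (Submodule.Quotient.mk_eq_zero _).1 (congrFun (LinearMap.mem_ker.1 hy) ⟨n, hn⟩)
  have h1 : HasSum (fun n => (if n ∈ s then ‖x n‖ ^ 2 - η' else 0) + ‖y n‖ ^ 2 / 4)
      (∑ n ∈ s, (‖x n‖ ^ 2 - η') + ‖y‖ ^ 2 / 4) := by
    refine HasSum.add ?_ ((lp2_hasSum y).div_const 4)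
    have := hasSum_sum_of_ne_finset_zero (s := s)
      (f := fun n => if n ∈ s then ‖x n‖ ^ 2 - η' else 0) (L := SummationFilter.unconditional ι)
      (fun n hn => if_neg hn)
    rwa [Finset.sum_congr rfl (fun n hn => if_pos hn)] at this
  have h2 := ((lp2_hasSum (x + y)).add (lp2_hasSum (x - y))).div_const 2
  have h3 := hasSum_le (fun n => by
    simp only [lp.coeFn_add, lp.coeFn_sub, Pi.add_apply, Pi.sub_apply]
    split_ifs with hn
    · have := hF' n (y n) (hy' n hn)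
      linarith
    · have h4 := norm_sub_le (x n + y n) (x n - y n)
      rw [show x n + y n - (x n - y n) = (2 : ℝ) • y n by rw [two_smul]; abel, norm_smul] at h4
      simp only [Real.norm_ofNat] at h4
      have h5 := pow_le_pow_left₀ (by positivity) h4 2
      nlinarith [sq_nonneg (‖x n + y n‖ - ‖x n - y n‖), sq_nonneg ‖y n‖]) h1 h2
  rw [Finset.sum_sub_distrib, Finset.sum_const, nsmul_eq_mul] at h3
  have h4 : (s.card : ℝ) * η' ≤ η / 2 := by
    rw [hη', mul_div_assoc', div_le_div_iff₀ (by positivity) (by positivity)]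
    nlinarith
  linarith

end sum

lemma qp_of_midpoint {X : Type} [NormedAddCommGroup X] [NormedSpace ℝ X]
    (h : ∀ (x : X) (η : ℝ), 0 < η → ∃ F : Submodule ℝ X, Cof F ∧ ∀ y ∈ F,
      Real.sqrt (‖x‖ ^ 2 + ‖y‖ ^ 2 / 4) - η ≤ (‖x + y‖ + ‖x - y‖) / 2) : QP X := by
  intro x η hη
  set η' := η / (4 * ‖x‖ + 1) with hη'
  have hη'pos : 0 < η' := by positivity
  have hη'' : η' * (4 * ‖x‖ + 1) = η := div_mul_cancel₀ _ (by positivity)
  obtain ⟨F, hF, h⟩ := h x η' hη'pos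
  refine ⟨F, hF, fun y hy => ?_⟩
  have h1 := h y hy
  set R := Real.sqrt (‖x‖ ^ 2 + ‖y‖ ^ 2 / 4) with hR
  have hR2 : R ^ 2 = ‖x‖ ^ 2 + ‖y‖ ^ 2 / 4 := Real.sq_sqrt (by positivity)
  have hR0 : 0 ≤ R := Real.sqrt_nonneg _
  set a := ‖x + y‖ with ha
  set b := ‖x - y‖ with hb
  have ha0 : 0 ≤ a := norm_nonneg _
  have hb0 : 0 ≤ b := norm_nonneg _
  have h2 : ((a + b) / 2) ^ 2 ≤ (a ^ 2 + b ^ 2) / 2 := by nlinarith [sq_nonneg (a - b)]
  refine le_trans ?_ h2
  rcases le_total R ‖y‖ with h3 | h3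
  · have h4 := norm_sub_le (x + y) (x - y)
    rw [show x + y - (x - y) = (2 : ℝ) • y by rw [two_smul]; abel, norm_smul] at h4
    simp only [Real.norm_ofNat] at h4
    have h5 : R ≤ (a + b) / 2 := by linarith
    have := pow_le_pow_left₀ hR0 h5 2
    linarith
  · have h4 : R ≤ 2 * ‖x‖ := by
      have := pow_le_pow_left₀ (norm_nonneg _) h3 2
      refine le_of_pow_le_pow_left₀ two_ne_zero (by positivity) ?_
      nlinarith [sq_nonneg ‖x‖]
    have h5 : R ≤ (a + b) / 2 + η' := by linarith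
    rw [← hR2]
    rcases le_total R η' with h6 | h6
    · nlinarith [sq_nonneg ((a + b) / 2), mul_le_mul_of_nonneg_left h6 hR0,
        mul_le_mul_of_nonneg_left h4 hη'pos.le]
    · have h7 := pow_le_pow_left₀ (sub_nonneg.2 h6) h1 2
      nlinarith [mul_le_mul_of_nonneg_left h4 hη'pos.le, sq_nonneg η']

end Crest.Agent.R125
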