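import Mathlib
import Crest.Prelude.Def_TreePotentials
import Crest.Agent.R125.Common

/-! Mixing two tests on the countably branching tree, and the resulting midpoint inequality for
closed spans of coordinate vectors. -/

set_option autoImplicit false

open Crest.AnalysisR Crest.AnalysisR.TreePotential Filter Topology

namespace Crest.Agent.R125

/-- finite subtrees: finite sets containing the root and closed under passing to the parent -/
def IsSubtree (T : Finset (List ℕ)) : Prop := [] ∈ T ∧ ∀ a v, a :: v ∈ T → v ∈ T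

lemma exists_subtree (A : Finset (List ℕ)) : ∃ T, IsSubtree T ∧ A ⊆ T := by
  classical
  refine ⟨insert [] (A.biUnion fun s => s.tails.toFinset), ⟨by simp, ?_⟩, ?_⟩
  · intro a v h
    simp only [Finset.mem_insert, reduceCtorEq, Finset.mem_biUnion, List.mem_toFinset,
      List.mem_tails, false_or] at h ⊢
    obtain ⟨s, hs, h⟩ := h
    exact Or.inr ⟨s, hs, (List.suffix_cons a v).trans h⟩
  · intro s hs
    simp only [Finset.mem_insert, Finset.mem_biUnion, List.mem_toFinset, List.mem_tails]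
    exact Or.inr ⟨s, hs, List.suffix_refl s⟩

/-- last ancestor in `T` -/
def anc (T : Finset (List ℕ)) : List ℕ → List ℕ
  | [] => []
  | a :: v => if a :: v ∈ T then a :: v else anc T v

lemma anc_suffix (T : Finset (List ℕ)) : ∀ s, anc T s <:+ s
  | [] => List.suffix_refl _
  | a :: v => by
    unfold anc
    split_ifs
    · exact List.suffix_refl _
    · exact (anc_suffix T v).trans (List.suffix_cons a v)

lemma anc_of_mem {T : Finset (List ℕ)} : ∀ {s}, s ∈ T → anc T s = s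
  | [], _ => rfl
  | a :: v, h => by unfold anc; rw [if_pos h]

/-- coefficients with a prescribed potential -/
def incr (H : List ℕ → ℝ) : List ℕ → ℝ
  | [] => H []
  | a :: v => H (a :: v) - H v

lemma pathPotential_incr (H : List ℕ → ℝ) : ∀ s, pathPotential (incr H) s = H s
  | [] => rfl
  | a :: v => by
    rw [pathPotential, pathPotential_incr H v, incr]; ring

/-- the bent increment -/
noncomputable def bend (β F D : ℝ) : ℝ := if 0 ≤ F then -(β * max (-D) 0) else β * max D 0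

lemma bend_sub (β F D : ℝ) : bend β F D - bend β F (-D) = β * D := by
  unfold bend
  split_ifs
  · rcases le_total 0 D with h | h
    · rw [max_eq_right (by linarith), neg_neg, max_eq_left h]; ring
    · rw [max_eq_left (by linarith), neg_neg, max_eq_right h]; ring
  · rcases le_total 0 D with h | h
    · rw [max_eq_left h, max_eq_right (by linarith)]; ring
    · rw [max_eq_right h, max_eq_left (by linarith)]; ring

lemma bend_lip {β : ℝ} (hβ : 0 ≤ β) (F D D' : ℝ) :
    |bend β F D - bend β F D'| ≤ β * |D - D'| := by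
  unfold bend
  split_ifs
  · have := abs_max_sub_max_le_abs (-D') (-D) 0
    rw [show -(β * max (-D) 0) - -(β * max (-D') 0) = β * (max (-D') 0 - max (-D) 0) by ring,
      abs_mul, abs_of_nonneg hβ]
    refine mul_le_mul_of_nonneg_left (this.trans (le_of_eq ?_)) hβ
    congr 1; ring
  · have := abs_max_sub_max_le_abs D D' 0
    rw [← mul_sub, abs_mul, abs_of_nonneg hβ]
    exact mul_le_mul_of_nonneg_left this hβ

lemma bend_zero (β F : ℝ) : bend β F 0 = 0 := by simp [bend]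

lemma bend_bound {α β F D : ℝ} (hα0 : 0 ≤ α) (hα : α ≤ 1) (hβ0 : 0 ≤ β) (hβ : β ≤ 1 / 2)
    (hF : |F| ≤ 1) (hD : |D| ≤ 2) : |α * F + bend β F D| ≤ 1 := by
  rw [abs_le] at hF hD ⊢
  unfold bend
  have h1 : 0 ≤ max (-D) 0 := le_max_right _ _
  have h2 : max (-D) 0 ≤ 2 := max_le (by linarith) (by norm_num)
  have h3 : 0 ≤ max D 0 := le_max_right _ _
  have h4 : max D 0 ≤ 2 := max_le (by linarith) (by norm_num)
  split_ifs with h
  · constructor <;> nlinarith [mul_nonneg hα0 h, mul_nonneg hβ0 h1]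
  · push Not at h
    constructor <;> nlinarith [mul_nonneg hα0 (neg_nonneg.2 h.le), mul_nonneg hβ0 h3]

/-- The two mixed tests. -/
lemma exists_mix {T : Finset (List ℕ)} (hT : IsSubtree T) (f g : List ℕ → ℝ) {α β : ℝ}
    (hα0 : 0 ≤ α) (hα : α ≤ 1) (hβ0 : 0 ≤ β) (hβ : β ≤ 1 / 2) :
    ∃ h₁ h₂ : List ℕ → ℝ, (∀ s ∈ T, h₁ s = α * f s ∧ h₂ s = α * f s) ∧
      (∀ s ∉ T, h₁ s - h₂ s = β * g s) ∧
      (∀ s, h₁ s ^ 2 ≤ α ^ 2 * f s ^ 2 + β ^ 2 * g s ^ 2 ∧
        h₂ s ^ 2 ≤ α ^ 2 * f s ^ 2 + β ^ 2 * g s ^ 2) ∧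
      ∀ s, (∀ u, u <:+ s → |pathPotential f u| ≤ 1 ∧ |pathPotential g u| ≤ 1) →
        |pathPotential h₁ s| ≤ 1 ∧ |pathPotential h₂ s| ≤ 1 := by
  set F := pathPotential f with hF
  set G := pathPotential g with hG
  set H : ℝ → List ℕ → ℝ := fun σ s =>
    α * F (anc T s) + bend β (F (anc T s)) (σ * (G s - G (anc T s))) with hH
  have hin : ∀ σ, ∀ s ∈ T, incr (H σ) s = α * f s := by
    intro σ s hs
    cases s with
    | nil => simp [incr, hH, anc, bend_zero, hF, pathPotential]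
    | cons a v =>
      simp only [incr, hH, anc_of_mem hs, anc_of_mem (hT.2 a v hs), sub_self, mul_zero, bend_zero,
        hF, pathPotential]
      ring
  have hout : ∀ σ, ∀ s ∉ T, ∃ r D, incr (H σ) s = bend β r (σ * (D + g s)) - bend β r (σ * D) ∧
      ∀ σ', incr (H σ') s = bend β r (σ' * (D + g s)) - bend β r (σ' * D) := by
    intro σ s hs
    cases s with
    | nil => exact absurd hT.1 hs
    | cons a v =>
      have key : ∀ σ', incr (H σ') (a :: v) =
          bend β (F (anc T v)) (σ' * ((G v - G (anc T v)) + g (a :: v))) -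
            bend β (F (anc T v)) (σ' * (G v - G (anc T v))) := by
        intro σ'
        have e1 : anc T (a :: v) = anc T v := by rw [anc, if_neg hs]
        have e2 : G (a :: v) - G (anc T v) = (G v - G (anc T v)) + g (a :: v) := by
          rw [hG, pathPotential]; ring
        simp only [incr, hH, e1, e2]
        ring
      exact ⟨_, _, key σ, key⟩
  have hsq : ∀ σ : ℝ, |σ| = 1 → ∀ s, incr (H σ) s ^ 2 ≤ α ^ 2 * f s ^ 2 + β ^ 2 * g s ^ 2 := by
    intro σ hσ s
    by_cases hs : s ∈ T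
    · rw [hin σ s hs, mul_pow]
      nlinarith [sq_nonneg (β * g s)]
    · obtain ⟨r, D, h, -⟩ := hout σ s hs
      have h1 := bend_lip hβ0 r (σ * (D + g s)) (σ * D)
      rw [← h, ← mul_sub, abs_mul, hσ, one_mul, add_sub_cancel_left] at h1
      have h2 := pow_le_pow_left₀ (abs_nonneg _) h1 2
      rw [sq_abs, mul_pow, sq_abs] at h2
      nlinarith [sq_nonneg (α * f s)]
  have hpot : ∀ σ : ℝ, |σ| = 1 → ∀ s, (∀ u, u <:+ s → |F u| ≤ 1 ∧ |G u| ≤ 1) →
      |pathPotential (incr (H σ)) s| ≤ 1 := by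
    intro σ hσ s hs
    rw [pathPotential_incr]
    refine bend_bound hα0 hα hβ0 hβ (hs _ (anc_suffix T s)).1 ?_
    rw [abs_mul, hσ, one_mul]
    have h1 := (hs _ (anc_suffix T s)).2
    have h2 := (hs _ (List.suffix_refl s)).2
    have := abs_sub (G s) (G (anc T s))
    linarith
  refine ⟨incr (H 1), incr (H (-1)), fun s hs => ⟨hin 1 s hs, hin (-1) s hs⟩, fun s hs => ?_,
    fun s => ⟨hsq 1 (by simp) s, hsq (-1) (by simp) s⟩,
    fun s hs => ⟨hpot 1 (by simp) s hs, hpot (-1) (by simp) s hs⟩⟩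
  obtain ⟨r, D, -, h⟩ := hout 1 s hs
  rw [h 1, h (-1)]
  have h1 := bend_sub β r (D + g s)
  have h2 := bend_sub β r D
  simp only [one_mul, neg_mul]
  linarith

lemma pathPotential_neg (f : List ℕ → ℝ) : ∀ s, pathPotential (-f) s = -pathPotential f s
  | [] => rfl
  | a :: v => by
    rw [pathPotential, pathPotential, pathPotential_neg f v]; simp only [Pi.neg_apply]; ring

lemma pathPotential_single (s : List ℕ) :
    ∀ u, pathPotential (Pi.single s (1 : ℝ)) u = if s <:+ u then 1 else 0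
  | [] => by
    by_cases h : s = []
    · subst h; simp [pathPotential]
    · simp [pathPotential, h, Ne.symm h]
  | a :: v => by
    rw [pathPotential, pathPotential_single s v]
    by_cases h : s = a :: v
    · subst h
      have : ¬ (a :: v <:+ v) := fun h => by
        have := h.length_le
        simp at this
      simp [this]
    · simp [List.suffix_cons_iff, h, Ne.symm h]

section space
variable {τ : Type} (ev : τ → List ℕ → ℝ) (e : List ℕ → lp (fun _ : τ => ℝ) ⊤)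

/-- the closed span of the coordinate vectors -/
noncomputable abbrev Zsp : Submodule ℝ (lp (fun _ : τ => ℝ) ⊤) :=
  (Submodule.span ℝ (Set.range e)).topologicalClosure

lemma evalCLM_apply' (f : τ) (x : lp (fun _ : τ => ℝ) ⊤) :
    lp.evalCLM ℝ (fun _ : τ => ℝ) ⊤ f x = x f := rfl

variable {e}

lemma Zsp_ext {L : lp (fun _ : τ => ℝ) ⊤ →L[ℝ] ℝ} (hL : ∀ s, L (e s) = 0) :
    ∀ x ∈ Zsp e, L x = 0 := by
  intro x hx
  have h1 : Submodule.span ℝ (Set.range e) ≤ LinearMap.ker (L : _ →ₗ[ℝ] ℝ) := by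
    rw [Submodule.span_le]
    rintro _ ⟨s, rfl⟩
    exact hL s
  exact (Submodule.topologicalClosure_minimal _ h1 L.isClosed_ker) hx

lemma mem_Zsp (s : List ℕ) : e s ∈ Zsp e :=
  Submodule.le_topologicalClosure _ (Submodule.subset_span ⟨s, rfl⟩)

lemma Zsp_separable : TopologicalSpace.SeparableSpace (Zsp e) :=
  (((Set.countable_range e).isSeparable.span (R := ℝ)).closure).separableSpace

lemma Zsp_approx {x : lp (fun _ : τ => ℝ) ⊤} (hx : x ∈ Zsp e) {η : ℝ} (hη : 0 < η) :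
    ∃ T, IsSubtree T ∧ ∃ c : List ℕ → ℝ, ‖x - ∑ s ∈ T, c s • e s‖ < η := by
  obtain ⟨x', hx', hd⟩ := Metric.mem_closure_iff.1 hx η hη
  obtain ⟨c, rfl⟩ := (Finsupp.mem_span_range_iff_exists_finsupp).1 hx'
  obtain ⟨T, hT, hsub⟩ := exists_subtree c.support
  refine ⟨T, hT, c, ?_⟩
  rw [← dist_eq_norm, ← Finsupp.sum_of_support_subset c hsub (fun s a => a • e s) (by simp)]
  exact hd

variable {ev}

lemma Zsp_norming (he : ∀ s f, e s f = ev f s) (hne : Nonempty τ)
    (hsym : ∀ f : τ, ∃ f' : τ, ev f' = -ev f) {x : lp (fun _ : τ => ℝ) ⊤} (hx : x ∈ Zsp e)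
    {η : ℝ} (hη : 0 < η) : ∃ f, ‖x‖ - η < x f := by
  obtain ⟨_, ⟨f, rfl⟩, h⟩ := (lp.isLUB_norm x).exists_between (sub_lt_self ‖x‖ hη)
  have h1 : ‖x‖ - η < |x f| := h.1
  rcases le_total 0 (x f) with h0 | h0
  · exact ⟨f, by rwa [abs_of_nonneg h0] at h1⟩
  · obtain ⟨f', hf'⟩ := hsym f
    have := Zsp_ext (L := lp.evalCLM ℝ (fun _ : τ => ℝ) ⊤ f' + lp.evalCLM ℝ (fun _ : τ => ℝ) ⊤ f)
      (fun s => by simp [evalCLM_apply', he, hf']) x hx
    simp only [add_apply, evalCLM_apply'] at this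
    refine ⟨f', ?_⟩
    rw [abs_of_nonpos h0] at h1
    linarith

lemma apply_le_norm (x : lp (fun _ : τ => ℝ) ⊤) (f : τ) : |x f| ≤ ‖x‖ :=
  lp.norm_apply_le_norm (by simp) x f

/-- The asymptotic midpoint inequality. -/
lemma Zsp_midpoint (he : ∀ s f, e s f = ev f s) (hne : Nonempty τ)
    (hsym : ∀ f : τ, ∃ f' : τ, ev f' = -ev f)
    (κ : List ℕ → lp (fun _ : τ => ℝ) ⊤ →L[ℝ] ℝ)
    (hκ : ∀ s u f, ev f s * κ s (e u) = if u = s then ev f s else 0)
    (hmix : ∀ (f g : τ) (α β : ℝ) (T : Finset (List ℕ)), IsSubtree T → 0 ≤ α → 0 ≤ β →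
      α ^ 2 + β ^ 2 ≤ 1 → β ≤ 1 / 2 → ∃ h₁ h₂ : τ,
        (∀ s ∈ T, ev h₁ s = α * ev f s ∧ ev h₂ s = α * ev f s) ∧
        ∀ s ∉ T, ev h₁ s - ev h₂ s = β * ev g s)
    {x : lp (fun _ : τ => ℝ) ⊤} (hx : x ∈ Zsp e) {η : ℝ} (hη : 0 < η) :
    ∃ T : Finset (List ℕ), ∀ y ∈ Zsp e, (∀ s ∈ T, κ s y = 0) →
      Real.sqrt (‖x‖ ^ 2 + ‖y‖ ^ 2 / 4) - η ≤ (‖x + y‖ + ‖x - y‖) / 2 := by
  classical
  obtain ⟨T, hT, c, hc⟩ := Zsp_approx hx (η := η / 4) (by positivity)
  refine ⟨T, fun y hy hyT => ?_⟩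
  set R := Real.sqrt (‖x‖ ^ 2 + ‖y‖ ^ 2 / 4) with hR
  have hR2 : R ^ 2 = ‖x‖ ^ 2 + ‖y‖ ^ 2 / 4 := Real.sq_sqrt (by positivity)
  have hR0 : 0 ≤ R := Real.sqrt_nonneg _
  by_cases hyR : R ≤ ‖y‖
  · have h1 : ‖(x + y) - (x - y)‖ ≤ ‖x + y‖ + ‖x - y‖ := norm_sub_le _ _
    rw [show (x + y) - (x - y) = (2 : ℝ) • y by rw [two_smul]; abel, norm_smul] at h1
    simp only [Real.norm_ofNat] at h1
    linarith
  push Not at hyR
  have hRpos : 0 < R := (norm_nonneg y).trans_lt hyR
  set α := ‖x‖ / R with hα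
  set β := ‖y‖ / (2 * R) with hβ
  have hα0 : 0 ≤ α := by positivity
  have hβ0 : 0 ≤ β := by positivity
  have hαβ : α ^ 2 + β ^ 2 = 1 := by
    rw [hα, hβ]; field_simp; linarith
  have hβ1 : β ≤ 1 / 2 := by
    rw [hβ, div_le_iff₀ (by positivity)]; linarith
  have hα1 : α ≤ 1 := by nlinarith [sq_nonneg β]
  have hval : α * ‖x‖ + β * ‖y‖ / 2 = R := by
    rw [hα, hβ]; field_simp; linarith
  obtain ⟨f, hf⟩ := Zsp_norming he hne hsym hx (η := η / 4) (by positivity)
  obtain ⟨g, hg⟩ := Zsp_norming he hne hsym hy (η := η / 4) (by positivity)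
  obtain ⟨h₁, h₂, hin, hout⟩ := hmix f g α β T hT hα0 hβ0 hαβ.le hβ1
  set x' := ∑ s ∈ T, c s • e s with hx'
  have hx'v : ∀ k : τ, x' k = ∑ s ∈ T, c s * ev k s := by
    intro k
    simp only [hx', lp.coeFn_sum, Finset.sum_apply, lp.coeFn_smul, Pi.smul_apply, smul_eq_mul, he]
  have hx1 : x' h₁ = α * x' f := by
    rw [hx'v, hx'v, Finset.mul_sum]
    exact Finset.sum_congr rfl fun s hs => by rw [(hin s hs).1]; ring
  have hx2 : x' h₂ = α * x' f := by
    rw [hx'v, hx'v, Finset.mul_sum]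
    exact Finset.sum_congr rfl fun s hs => by rw [(hin s hs).2]; ring
  have hclose : ∀ k : τ, |x k - x' k| ≤ η / 4 := by
    intro k
    have := apply_le_norm (x - x') k
    simp only [lp.coeFn_sub, Pi.sub_apply] at this
    linarith
  have hy1 : y h₁ - y h₂ = β * y g := by
    have := Zsp_ext (L := lp.evalCLM ℝ (fun _ : τ => ℝ) ⊤ h₁ - lp.evalCLM ℝ (fun _ : τ => ℝ) ⊤ h₂
      - β • lp.evalCLM ℝ (fun _ : τ => ℝ) ⊤ g + β • ∑ s ∈ T, ev g s • κ s) (fun u => by
        simp only [add_apply, sub_apply,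
          smul_apply, sum_apply, evalCLM_apply', he,
          smul_eq_mul, hκ, Finset.sum_ite_eq]
        by_cases hu : u ∈ T
        · rw [if_pos hu, (hin u hu).1, (hin u hu).2]; ring
        · rw [if_neg hu, hout u hu]; ring) y hy
    simp only [add_apply, sub_apply,
      smul_apply, sum_apply, evalCLM_apply',
      smul_eq_mul] at this
    rw [Finset.sum_eq_zero (fun s hs => by rw [hyT s hs, mul_zero])] at this
    linarith
  have h1 := (le_abs_self _).trans (apply_le_norm (x + y) h₁)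
  have h2 := (le_abs_self _).trans (apply_le_norm (x - y) h₂)
  simp only [lp.coeFn_add, lp.coeFn_sub, Pi.add_apply, Pi.sub_apply] at h1 h2
  have h3 := abs_le.1 (hclose h₁)
  have h4 := abs_le.1 (hclose h₂)
  have h5 := abs_le.1 (hclose f)
  have h6 : α * (‖x‖ - η / 2) ≤ α * x' f := mul_le_mul_of_nonneg_left (by linarith) hα0
  have h7 : β * (‖y‖ - η / 4) ≤ β * y g := mul_le_mul_of_nonneg_left hg.le hβ0
  nlinarith

/-- path vectors -/
noncomputable def pv (e : List ℕ → lp (fun _ : τ => ℝ) ⊤) : List ℕ → lp (fun _ : τ => ℝ) ⊤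
  | [] => e []
  | a :: v => pv e v + e (a :: v)

lemma pv_mem : ∀ s, pv e s ∈ Zsp e
  | [] => mem_Zsp []
  | a :: v => add_mem (pv_mem v) (mem_Zsp (a :: v))

lemma pv_apply (he : ∀ s f, e s f = ev f s) (f : τ) : ∀ s, pv e s f = pathPotential (ev f) s
  | [] => he [] f
  | a :: v => by
    rw [pv, pathPotential, lp.coeFn_add, Pi.add_apply, pv_apply he f v, he]

lemma children_upper (he : ∀ s f, e s f = ev f s) (r : List ℕ)
    (hsib : ∀ (f : τ) (A : Finset ℕ), ∑ n ∈ A, ev f (n :: r) ^ 2 ≤ 1) (A : Finset ℕ) :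
    ‖∑ a ∈ A, e (a :: r)‖ ^ 2 ≤ 1 * A.card := by
  have : ‖∑ a ∈ A, e (a :: r)‖ ≤ Real.sqrt A.card := by
    refine lp.norm_le_of_forall_le (Real.sqrt_nonneg _) fun f => ?_
    refine Real.le_sqrt_of_sq_le ?_
    simp only [lp.coeFn_sum, Finset.sum_apply, he, Real.norm_eq_abs, sq_abs]
    refine sq_sum_le_card_mul_sum_sq.trans ?_
    exact mul_le_of_le_one_right (by positivity) (hsib f A)
  have h2 := pow_le_pow_left₀ (norm_nonneg _) this 2
  rwa [Real.sq_sqrt (by positivity), ← one_mul (A.card : ℝ)] at h2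

end space

end Crest.Agent.R125
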