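import Mathlib
import Crest.Agent.R125.Tree

/-! The four bounded-potential models satisfy the hypotheses of the abstract lemmas. -/

set_option autoImplicit false

open Crest.AnalysisR Crest.AnalysisR.TreePotential Filter Topology

namespace Crest.Agent.R125

lemma extra_mix (m : PotentialModel) {f g h : List ℕ → ℝ} {α β : ℝ} (hαβ : α ^ 2 + β ^ 2 ≤ 1)
    (hf : ExtraCondition m f) (hg : ExtraCondition m g)
    (hh : ∀ s, h s ^ 2 ≤ α ^ 2 * f s ^ 2 + β ^ 2 * g s ^ 2) : ExtraCondition m h := by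
  have key : ∀ {ι : Type} (A : Finset ι) (φ : ι → List ℕ), ∑ n ∈ A, f (φ n) ^ 2 ≤ 1 →
      ∑ n ∈ A, g (φ n) ^ 2 ≤ 1 → ∑ n ∈ A, h (φ n) ^ 2 ≤ 1 := by
    intro ι A φ h1 h2
    refine (Finset.sum_le_sum fun n _ => hh (φ n)).trans ?_
    rw [Finset.sum_add_distrib, ← Finset.mul_sum, ← Finset.mul_sum]
    nlinarith [sq_nonneg α, sq_nonneg β]
  have hz : ∀ s, f s = 0 → g s = 0 → h s = 0 := by
    intro s h1 h2
    have := hh s
    rw [h1, h2] at this
    exact pow_eq_zero_iff (two_ne_zero) |>.1 (le_antisymm (by simpa using this) (sq_nonneg _))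
  cases m with
  | rootlessSibling =>
    exact ⟨hz _ hf.1 hg.1, fun r A => key A (fun n => n :: r) (hf.2 r A) (hg.2 r A)⟩
  | rootedSibling => exact fun r A => key A (fun n => n :: r) (hf r A) (hg r A)
  | antichain =>
    refine ⟨(hf.1.union hg.1).subset fun s hs => ?_, fun A hA => key A id (hf.2 A hA) (hg.2 A hA)⟩
    by_contra hcon
    simp only [Set.mem_union, Function.mem_support, not_or, not_not] at hcon
    exact hs (hz s hcon.1 hcon.2)
  | global => exact fun A => key A id (hf A) (hg A)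

lemma extra_zero (m : PotentialModel) : ExtraCondition m 0 := by
  cases m <;> simp [ExtraCondition]

lemma pathPotential_zero : ∀ s, pathPotential 0 s = 0
  | [] => rfl
  | a :: v => by rw [pathPotential, pathPotential_zero v]; simp

lemma isTest_zero (m : PotentialModel) : IsTest m 0 :=
  ⟨fun s => by simp [pathPotential_zero], extra_zero m⟩

lemma isTest_neg {m : PotentialModel} {f : List ℕ → ℝ} (hf : IsTest m f) : IsTest m (-f) :=
  ⟨fun s => by rw [pathPotential_neg, abs_neg]; exact hf.1 s,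
    extra_mix m (α := 1) (β := 0) (by norm_num) hf.2 hf.2 fun s => by simp⟩

lemma sum_single_sq_le {ι : Type} (A : Finset ι) (φ : ι → List ℕ) (hφ : Function.Injective φ)
    (s : List ℕ) : ∑ n ∈ A, (Pi.single s (1 : ℝ) : List ℕ → ℝ) (φ n) ^ 2 ≤ 1 := by
  classical
  rw [← Finset.sum_image (s := A) (g := φ)
    (f := fun u => (Pi.single s (1 : ℝ) : List ℕ → ℝ) u ^ 2) (fun a _ b _ h => hφ h)]
  have : ∀ u, (Pi.single s (1 : ℝ) : List ℕ → ℝ) u ^ 2 = if u = s then 1 else 0 := by
    intro u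
    rw [Pi.single_apply]
    split_ifs <;> simp
  simp only [this, Finset.sum_ite_eq']
  split_ifs <;> simp

lemma isTest_single (m : PotentialModel) (s : List ℕ)
    (hs : m = .rootlessSibling → s ≠ []) : IsTest m (Pi.single s 1) := by
  refine ⟨fun u => ?_, ?_⟩
  · rw [pathPotential_single]
    split_ifs <;> simp
  · have h1 : ∀ r : List ℕ, Function.Injective fun n : ℕ => n :: r := fun r a b h => by
      simpa using h
    cases m with
    | rootlessSibling =>
      exact ⟨Pi.single_eq_of_ne (hs rfl).symm _, fun r A => sum_single_sq_le A _ (h1 r) s⟩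
    | rootedSibling => exact fun r A => sum_single_sq_le A _ (h1 r) s
    | antichain =>
      exact ⟨(Set.finite_singleton s).subset Pi.support_single_subset,
        fun A _ => sum_single_sq_le A id Function.injective_id s⟩
    | global => exact fun A => sum_single_sq_le A id Function.injective_id s

lemma extra_sib {m : PotentialModel} {f : List ℕ → ℝ} (hf : ExtraCondition m f) (r : List ℕ)
    (A : Finset ℕ) : ∑ n ∈ A, f (n :: r) ^ 2 ≤ 1 := by
  classical
  have h1 : ∑ n ∈ A, f (n :: r) ^ 2 = ∑ u ∈ A.image (fun n => n :: r), f u ^ 2 := by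
    rw [Finset.sum_image (fun a _ b _ h => by simpa using h)]
  cases m with
  | rootlessSibling => exact hf.2 r A
  | rootedSibling => exact hf r A
  | antichain =>
    rw [h1]
    refine hf.2 _ ?_
    intro u hu v hv huv h
    obtain ⟨a, -, rfl⟩ := Finset.mem_image.1 hu
    obtain ⟨b, -, rfl⟩ := Finset.mem_image.1 hv
    exact huv (h.eq_of_length (by simp))
  | global => rw [h1]; exact hf _

lemma model_kappa (m : PotentialModel) :
    ∃ κ : List ℕ → lp (fun _ : PotentialTest m => ℝ) ⊤ →L[ℝ] ℝ,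
      ∀ s u (f : PotentialTest m), f.1 s * κ s (coordVector m u) = if u = s then f.1 s else 0 := by
  classical
  refine ⟨fun s => if h : IsTest m (Pi.single s 1) then
    lp.evalCLM ℝ (fun _ : PotentialTest m => ℝ) ⊤ ⟨_, h⟩ else 0, fun s u f => ?_⟩
  by_cases h : IsTest m (Pi.single s 1)
  · simp only [dif_pos h, evalCLM_apply']
    change f.1 s * (Pi.single s (1 : ℝ) : List ℕ → ℝ) u = _
    rw [Pi.single_apply]
    split_ifs <;> simp
  · have h1 : m = .rootlessSibling ∧ s = [] := by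
      by_contra hc
      exact h (isTest_single m s fun h1 h2 => hc ⟨h1, h2⟩)
    obtain ⟨rfl, rfl⟩ := h1
    have : f.1 [] = 0 := f.2.2.1
    simp [this]

lemma model_mix (m : PotentialModel) (f g : PotentialTest m) (α β : ℝ) (T : Finset (List ℕ))
    (hT : IsSubtree T) (hα0 : 0 ≤ α) (hβ0 : 0 ≤ β) (hαβ : α ^ 2 + β ^ 2 ≤ 1) (hβ : β ≤ 1 / 2) :
    ∃ h₁ h₂ : PotentialTest m, (∀ s ∈ T, h₁.1 s = α * f.1 s ∧ h₂.1 s = α * f.1 s) ∧
      ∀ s ∉ T, h₁.1 s - h₂.1 s = β * g.1 s := by
  obtain ⟨h₁, h₂, hin, hout, hsq, hpot⟩ := exists_mix hT f.1 g.1 hα0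
    (by nlinarith [sq_nonneg β]) hβ0 hβ
  exact ⟨⟨h₁, fun s => (hpot s fun u _ => ⟨f.2.1 u, g.2.1 u⟩).1,
      extra_mix m hαβ f.2.2 g.2.2 fun s => (hsq s).1⟩,
    ⟨h₂, fun s => (hpot s fun u _ => ⟨f.2.1 u, g.2.1 u⟩).2,
      extra_mix m hαβ f.2.2 g.2.2 fun s => (hsq s).2⟩, hin, hout⟩

lemma model_midpoint (m : PotentialModel) (x : Zsp (coordVector m)) {η : ℝ} (hη : 0 < η) :
    ∃ F : Submodule ℝ (Zsp (coordVector m)), Cof F ∧ ∀ y ∈ F,
      Real.sqrt (‖x‖ ^ 2 + ‖y‖ ^ 2 / 4) - η ≤ (‖x + y‖ + ‖x - y‖) / 2 := by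
  obtain ⟨κ, hκ⟩ := model_kappa m
  obtain ⟨T, hT⟩ := Zsp_midpoint (ev := fun f : PotentialTest m => f.1) (e := coordVector m)
    (fun _ _ => rfl) ⟨⟨0, isTest_zero m⟩⟩ (fun f => ⟨⟨_, isTest_neg f.2⟩, rfl⟩) κ hκ (model_mix m)
    x.2 hη
  obtain ⟨F, hF, h⟩ := exists_cof_of_functionals
    (fun s : T => (κ s).comp (Zsp (coordVector m)).subtypeL)
  exact ⟨F, hF, fun y hy => hT y y.2 fun s hs => h y hy ⟨s, hs⟩⟩

lemma model_not_auc (m : PotentialModel) (N : Zsp (coordVector m) → ℝ) (hN : EqNorm N) :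
    ¬ AUC N := by
  have he : ∀ s (f : PotentialTest m), coordVector m s f = f.1 s := fun _ _ => rfl
  refine not_auc_of_tree (θ := 1 / 2) (m := 1) (M := 1) (by norm_num) one_pos
    {x | ∃ s, s ≠ [] ∧ x = ⟨pv (coordVector m) s, pv_mem s⟩} ⟨_, [0], by simp, rfl⟩ ?_ ?_ N hN
  · rintro _ ⟨s, hs, rfl⟩
    change 1 ≤ ‖pv (coordVector m) s‖ ∧ ‖pv (coordVector m) s‖ ≤ 1
    constructor
    · have := apply_le_norm (pv (coordVector m) s) ⟨_, isTest_single m s fun _ => hs⟩
      rw [pv_apply he] at this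
      simpa [pathPotential_single] using this
    · refine lp.norm_le_of_forall_le zero_le_one fun f => ?_
      rw [pv_apply he]
      exact f.2.1 s
  · rintro _ ⟨s, hs, rfl⟩ F hF ε hε
    obtain ⟨a, y, hy, hay⟩ := hF.exists_near
      (fun a => (⟨coordVector m (a :: s), mem_Zsp _⟩ : Zsp (coordVector m))) 1 (fun A => by
        have := children_upper he s (fun f A => extra_sib f.2.2 s A) A
        rw [← Submodule.norm_coe]
        simpa using this) (ε := min ε (1 / 2)) (by positivity)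
    refine ⟨y, hy, _, ⟨a :: s, by simp, rfl⟩, ?_, ?_⟩
    · have h1 := apply_le_norm (coordVector m (a :: s)) ⟨_, isTest_single m (a :: s) (by simp)⟩
      rw [he] at h1
      simp only [Pi.single_eq_same, abs_one] at h1
      have h2 := norm_sub_norm_le (⟨coordVector m (a :: s), mem_Zsp _⟩ : Zsp (coordVector m)) y
      have h3 := min_le_right ε (1 / 2)
      have h4 : ‖(⟨coordVector m (a :: s), mem_Zsp _⟩ : Zsp (coordVector m))‖ =
        ‖coordVector m (a :: s)‖ := rfl
      linarith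
    · have h3 := min_le_left ε (1 / 2)
      refine le_trans (le_of_eq ?_) (hay.le.trans h3)
      rw [norm_sub_rev]
      congr 1
      ext1
      simp only [pv, AddSubgroupClass.coe_sub, Submodule.coe_add]
      abel

end Crest.Agent.R125
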