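import Mathlib
import Crest.Agent.R125.Models
import Crest.Agent.R125.L2Sum

/-! The height-`n` global models and their `ℓ²`-sum. -/

set_option autoImplicit false

open Crest.AnalysisR Crest.AnalysisR.TreePotential Filter Topology

namespace Crest.Agent.R125

/-- tests of height `n` -/
def HT (n : ℕ) : Type :=
  {f : List ℕ → ℝ // (∀ s : List ℕ, s.length ≤ n → |pathPotential f s| ≤ 1) ∧
    ExtraCondition .global f}

/-- coordinate vectors of height `n` -/
noncomputable def hvec (n : ℕ) (s : List ℕ) : lp (fun _ : HT n => ℝ) ⊤ :=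
  ⟨fun f => f.1 s, memℓp_infty ⟨1, by
    rintro _ ⟨f, rfl⟩
    have := f.2.2 {s}
    simp only [Finset.sum_singleton] at this
    exact (sq_le_one_iff_abs_le_one _).1 this⟩⟩

lemma hvec_apply (n : ℕ) (s : List ℕ) (f : HT n) : hvec n s f = f.1 s := rfl

/-- the Dirac test -/
def htSingle (n : ℕ) (s : List ℕ) : HT n :=
  ⟨Pi.single s 1, fun u _ => (isTest_single .global s (by simp)).1 u,
    (isTest_single .global s (by simp)).2⟩

lemma height_qp (n : ℕ) : QP (Zsp (hvec n)) := by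
  refine qp_of_midpoint fun x η hη => ?_
  obtain ⟨T, hT⟩ := Zsp_midpoint (ev := fun f : HT n => f.1) (e := hvec n)
    (fun _ _ => rfl) ⟨htSingle n []⟩ (fun f => ⟨⟨-f.1, fun s hs => by
      rw [pathPotential_neg, abs_neg]; exact f.2.1 s hs,
      extra_mix .global (α := 1) (β := 0) (by norm_num) f.2.2 f.2.2 fun s => by simp⟩, rfl⟩)
    (fun s => lp.evalCLM ℝ (fun _ : HT n => ℝ) ⊤ (htSingle n s)) (fun s u f => by
      change f.1 s * (Pi.single s (1 : ℝ) : List ℕ → ℝ) u = _
      rw [Pi.single_apply]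
      split_ifs <;> simp) (fun f g α β T hT hα0 hβ0 hαβ hβ => by
      obtain ⟨h₁, h₂, hin, hout, hsq, hpot⟩ := exists_mix hT f.1 g.1 hα0
        (by nlinarith [sq_nonneg β]) hβ0 hβ
      exact ⟨⟨h₁, fun s hs => (hpot s fun u hu =>
          ⟨f.2.1 u (hu.length_le.trans hs), g.2.1 u (hu.length_le.trans hs)⟩).1,
          extra_mix .global hαβ f.2.2 g.2.2 fun s => (hsq s).1⟩,
        ⟨h₂, fun s hs => (hpot s fun u hu =>
          ⟨f.2.1 u (hu.length_le.trans hs), g.2.1 u (hu.length_le.trans hs)⟩).2,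
          extra_mix .global hαβ f.2.2 g.2.2 fun s => (hsq s).2⟩, hin, hout⟩) x.2 hη
  obtain ⟨F, hF, h⟩ := exists_cof_of_functionals
    (fun s : T => (lp.evalCLM ℝ (fun _ : HT n => ℝ) ⊤ (htSingle n s)).comp
      (Zsp (hvec n)).subtypeL)
  exact ⟨F, hF, fun y hy => hT y y.2 fun s hs => h y hy ⟨s, hs⟩⟩

/-- a test as an element of `ℓ²` -/
noncomputable def htL2 {n : ℕ} (f : HT n) : lp (fun _ : List ℕ => ℝ) 2 :=
  ⟨f.1, lp2_mem (C := 1) fun s => by simpa using f.2.2 s⟩

lemma htL2_norm {n : ℕ} (f : HT n) : ‖htL2 f‖ ≤ 1 := by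
  refine lp.norm_le_of_forall_sum_le (by norm_num) zero_le_one fun s => ?_
  simpa [htL2] using f.2.2 s

open scoped RealInnerProductSpace in
/-- the embedding of `ℓ²` -/
noncomputable def hJ (n : ℕ) : lp (fun _ : List ℕ => ℝ) 2 →L[ℝ] lp (fun _ : HT n => ℝ) ⊤ :=
  LinearMap.mkContinuous
    { toFun := fun c => ⟨fun f => ⟪htL2 f, c⟫, memℓp_infty ⟨‖c‖, by
        rintro _ ⟨f, rfl⟩
        exact (norm_inner_le_norm _ _).trans
          (mul_le_of_le_one_left (norm_nonneg _) (htL2_norm f))⟩⟩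
      map_add' := fun c d => by ext f; exact inner_add_right _ _ _
      map_smul' := fun a c => by ext f; exact inner_smul_right _ _ _ } 1 fun c => by
    refine lp.norm_le_of_forall_le (by positivity) fun f => ?_
    exact (norm_inner_le_norm _ _).trans
      (mul_le_mul_of_nonneg_right (htL2_norm f) (norm_nonneg _))

lemma hJ_apply (n : ℕ) (c : lp (fun _ : List ℕ => ℝ) 2) (f : HT n) :
    hJ n c f = inner ℝ (htL2 f) c := rfl

lemma hJ_single (n : ℕ) (s : List ℕ) (a : ℝ) : hJ n (lp.single 2 s a) = a • hvec n s := by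
  ext f
  rw [hJ_apply, lp.inner_single_right]
  simp [htL2, hvec_apply]

lemma abs_pathPotential_le {f : List ℕ → ℝ} {C : ℝ} (h : ∀ s, |f s| ≤ C) :
    ∀ s : List ℕ, |pathPotential f s| ≤ (s.length + 1) * C
  | [] => by simpa [pathPotential] using h []
  | a :: v => by
    have h1 := abs_pathPotential_le h v
    have h2 := h (a :: v)
    rw [pathPotential]
    refine (abs_add_le _ _).trans ?_
    simp only [List.length_cons]
    push_cast
    linarith

lemma hJ_lower (n : ℕ) (c : lp (fun _ : List ℕ => ℝ) 2) : ‖c‖ ≤ (n + 1) * ‖hJ n c‖ := by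
  by_cases hc : c = 0
  · simp [hc]
  have hpos : 0 < ‖c‖ := norm_pos_iff.2 hc
  set r : ℝ := ((n + 1) * ‖c‖)⁻¹ with hr
  have hr0 : 0 < r := by positivity
  have hrc : r * ‖c‖ = 1 / (n + 1) := by rw [hr]; field_simp
  have hn1 : (1 : ℝ) ≤ n + 1 := by linarith [(Nat.cast_nonneg n : (0 : ℝ) ≤ n)]
  set f : HT n := ⟨fun s => r * c s, fun s hs => by
      refine (abs_pathPotential_le (C := 1 / (n + 1)) (fun u => ?_) s).trans ?_
      · rw [abs_mul, abs_of_pos hr0, ← hrc]
        exact mul_le_mul_of_nonneg_left (lp.norm_apply_le_norm (by simp) c u) hr0.le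
      · rw [mul_one_div, div_le_one (by positivity)]
        have : (s.length : ℝ) ≤ n := by exact_mod_cast hs
        linarith, fun A => by
      have h1 := lp2_sum_le c A
      simp only [Real.norm_eq_abs, sq_abs] at h1
      simp only [mul_pow, ← Finset.mul_sum]
      calc r ^ 2 * ∑ u ∈ A, c u ^ 2 ≤ r ^ 2 * ‖c‖ ^ 2 := by gcongr
        _ = (1 / ((n : ℝ) + 1)) ^ 2 := by rw [← mul_pow, hrc]
        _ ≤ 1 := by
          refine pow_le_one₀ (by positivity) ?_
          rw [div_le_one (by positivity)]; exact hn1⟩ with hf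
  have h1 : htL2 f = r • c := by ext s; rfl
  have h2 := (le_abs_self _).trans (apply_le_norm (hJ n c) f)
  rw [hJ_apply, h1, real_inner_smul_left, real_inner_self_eq_norm_sq, sq, ← mul_assoc, hrc,
    one_div, inv_mul_le_iff₀ (by positivity)] at h2
  exact h2

lemma height_refl (n : ℕ) : Refl (Zsp (hvec n)) := by
  classical
  have hmem : ∀ c, hJ n c ∈ Zsp (hvec n) := by
    intro c
    have h := (lp.hasSum_single (by simp) c).mapL (hJ n)
    refine (Submodule.isClosed_topologicalClosure _).mem_of_tendsto h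
      (Eventually.of_forall fun s => Submodule.sum_mem _ fun u _ => ?_)
    rw [hJ_single]
    exact Submodule.smul_mem _ _ (mem_Zsp u)
  have hanti : AntilipschitzWith ⟨n + 1, by positivity⟩ (hJ n) :=
    (hJ n).antilipschitz_of_bound (hJ_lower n)
  have hcl : IsClosed (Set.range (hJ n)) := hanti.isClosed_range (hJ n).uniformContinuous
  have hle : Zsp (hvec n) ≤ LinearMap.range (hJ n).toLinearMap := by
    refine Submodule.topologicalClosure_minimal _ ?_ hcl
    rw [Submodule.span_le]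
    rintro _ ⟨s, rfl⟩
    exact ⟨lp.single 2 s 1, by simpa using hJ_single n s 1⟩
  refine (refl_hilbert (lp (fun _ : List ℕ => ℝ) 2)).of_equiv
    (ContinuousLinearEquiv.ofBijective ((hJ n).codRestrict _ hmem) ?_ ?_)
  · rw [LinearMap.ker_eq_bot]
    intro a b h
    exact hanti.injective (congrArg Subtype.val h)
  · rw [LinearMap.range_eq_top]
    rintro ⟨z, hz⟩
    obtain ⟨c, hc⟩ := hle hz
    exact ⟨c, Subtype.ext hc⟩

/-- the example -/
noncomputable abbrev XX : Type := lp (fun n : ℕ => Zsp (hvec n)) 2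

lemma XX_not_auc (N : XX → ℝ) (hN : EqNorm N) : ¬ AUC N := by
  refine not_auc_of_trees (θ := 1 / 2) (m := 1) (M := 1) (by norm_num) one_pos (fun n => ?_) N hN
  have he : ∀ s (f : HT n), hvec n s f = f.1 s := fun _ _ => rfl
  set J := lp.singleContinuousLinearMap ℝ (fun n : ℕ => Zsp (hvec n)) 2 n with hJ
  have hJn : ∀ z, ‖J z‖ = ‖z‖ := fun z =>
    lp.norm_single (E := fun n : ℕ => Zsp (hvec n)) (p := 2) (by norm_num) n z
  refine ⟨fun k => {x | ∃ s : List ℕ, s.length = k ∧ x = J ⟨pv (hvec n) s, pv_mem s⟩},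
    ⟨_, [], rfl, rfl⟩, ?_, ?_⟩
  · rintro k hk _ ⟨s, hs, rfl⟩
    rw [hJn]
    change 1 ≤ ‖pv (hvec n) s‖ ∧ ‖pv (hvec n) s‖ ≤ 1
    constructor
    · have := apply_le_norm (pv (hvec n) s) (htSingle n s)
      rw [pv_apply he] at this
      simpa [htSingle, pathPotential_single] using this
    · refine lp.norm_le_of_forall_le zero_le_one fun f => ?_
      rw [pv_apply he]
      exact f.2.1 s (hs ▸ hk)
  · rintro k - _ ⟨s, hs, rfl⟩ F hF ε hε
    obtain ⟨a, y, hy, hay⟩ := hF.exists_near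
      (fun a => J (⟨hvec n (a :: s), mem_Zsp _⟩ : Zsp (hvec n))) 1 (fun A => by
        have := children_upper he s (fun f A => extra_sib f.2.2 s A) A
        rw [← map_sum, hJn, ← Submodule.norm_coe]
        simpa using this) (ε := min ε (1 / 2)) (by positivity)
    refine ⟨y, hy, _, ⟨a :: s, by simp [hs], rfl⟩, ?_, ?_⟩
    · have h1 := apply_le_norm (hvec n (a :: s)) (htSingle n (a :: s))
      rw [he] at h1
      simp only [htSingle, Pi.single_eq_same, abs_one] at h1
      have h2 := norm_sub_norm_le (J (⟨hvec n (a :: s), mem_Zsp _⟩ : Zsp (hvec n))) y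
      have h3 := min_le_right ε (1 / 2)
      have h4 : ‖J (⟨hvec n (a :: s), mem_Zsp _⟩ : Zsp (hvec n))‖ = ‖hvec n (a :: s)‖ := hJn _
      linarith
    · have h3 := min_le_left ε (1 / 2)
      refine le_trans (le_of_eq ?_) (hay.le.trans h3)
      rw [norm_sub_rev]
      congr 1
      have : (⟨pv (hvec n) (a :: s), pv_mem _⟩ : Zsp (hvec n)) =
          ⟨pv (hvec n) s, pv_mem s⟩ + ⟨hvec n (a :: s), mem_Zsp _⟩ := rfl
      rw [this, map_add]
      abel

lemma XX_qp : QP XX := qp_lp2 height_qp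

lemma XX_refl : Refl XX := refl_lp2 height_refl

lemma XX_separable : TopologicalSpace.SeparableSpace XX := separable_lp2 fun _ => Zsp_separable

section moduli
variable {X : Type} [NormedAddCommGroup X] [NormedSpace ℝ X]

lemma QP.moduli (hX : QP X) {t : ℝ} (ht : 0 < t) (x : X) (hx : ‖x‖ = 1) {η : ℝ} (hη : 0 < η) :
    ∃ F : Submodule ℝ X, Cof F ∧ ∀ y ∈ F, ‖y‖ = 1 →
      Real.sqrt (1 + t ^ 2 / 4) - η ≤ max ‖x + t • y‖ ‖x - t • y‖ ∧
      (Real.sqrt (1 + t ^ 2 / 4) + 1) / 2 - η ≤ (‖x + t • y‖ + ‖x - t • y‖) / 2 ∧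
      Real.sqrt (1 + t ^ 2 / 12) - η ≤ (‖x + t • y‖ + ‖x - t • y‖) / 2 := by
  obtain ⟨F, hF, h⟩ := hX x (η ^ 2) (by positivity)
  obtain ⟨φ, hφ, hφx⟩ := exists_dual_vector'' ℝ x
  have hk := cof_ker φ
  refine ⟨F ⊓ LinearMap.ker (φ : X →ₗ[ℝ] ℝ), ⟨hF.1.inter hk.1, Submodule.CoFG.inf hF.2 hk.2⟩,
    fun y hy hy1 => ?_⟩
  have h1 := h (t • y) (F.smul_mem t hy.1)
  rw [norm_smul, hx, hy1, Real.norm_eq_abs, abs_of_pos ht, mul_one, one_pow] at h1
  have hy0 : φ y = 0 := hy.2
  have hone : ∀ c : ℝ, 1 ≤ ‖x + c • y‖ := by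
    intro c
    have h2 := (le_abs_self _).trans (φ.le_opNorm (x + c • y))
    rw [map_add, map_smul, hy0, hφx, hx] at h2
    have := mul_le_of_le_one_left (norm_nonneg (x + c • y)) hφ
    simp only [smul_eq_mul, mul_zero, add_zero, RCLike.ofReal_real_eq_id, id] at h2
    linarith
  have ha := hone t
  have hb := hone (-t)
  rw [neg_smul, ← sub_eq_add_neg] at hb
  have h2 := norm_sub_le (x + t • y) (x - t • y)
  rw [show x + t • y - (x - t • y) = (2 * t) • y by rw [mul_smul, two_smul]; abel, norm_smul,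
    hy1, Real.norm_eq_abs, abs_of_pos (by positivity)] at h2
  set a := ‖x + t • y‖ with ha'
  set b := ‖x - t • y‖ with hb'
  have hm1 := le_max_left a b
  have hm2 := le_max_right a b
  have hm3 : max a b + 1 ≤ a + b := by
    rcases le_total a b with h | h
    · rw [max_eq_right h]; linarith
    · rw [max_eq_left h]; linarith
  have h3 : Real.sqrt (1 + t ^ 2 / 4) ≤ max a b + η := by
    refine Real.sqrt_le_iff.2 ⟨by linarith, ?_⟩
    have h4 := pow_le_pow_left₀ (by linarith) hm1 2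
    have h5 := pow_le_pow_left₀ (by linarith) hm2 2
    nlinarith [mul_nonneg (by linarith : 0 ≤ max a b) hη.le]
  refine ⟨by linarith, by linarith, ?_⟩
  have h4 : Real.sqrt (1 + t ^ 2 / 12) ≤ (a + b) / 2 + η := by
    refine Real.sqrt_le_iff.2 ⟨by linarith, ?_⟩
    nlinarith [mul_nonneg (sub_nonneg.2 ha) (sub_nonneg.2 hb),
      mul_nonneg (by linarith : 0 ≤ a + b) hη.le, sq_nonneg t, sq_nonneg η]
  linarith

end moduli

end Crest.Agent.R125
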