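import Mathlib
import Crest.Prelude.Def_DaugavetL1
import Crest.Agent.R125.Common

/-! Lower bound for the midpoint modulus of a subspace of `L¹` whose ball is totally bounded in
measure. -/

set_option autoImplicit false

open Crest.AnalysisR Crest.AnalysisR.L1Subspace MeasureTheory Filter Topology

namespace Crest.Agent.R125

variable {Ω : Type} [MeasurableSpace Ω] {P : Measure Ω}

/-- integration over a set as a functional on `L¹` -/
noncomputable def setIntCLM (P : Measure Ω) (B : Set Ω) : Lp ℝ 1 P →L[ℝ] ℝ where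
  toFun f := ∫ z in B, f z ∂P
  map_add' f g := by
    rw [← integral_add (L1.integrable_coeFn f).integrableOn (L1.integrable_coeFn g).integrableOn]
    exact integral_congr_ae (ae_restrict_of_ae (Lp.coeFn_add f g))
  map_smul' c f := by
    rw [RingHom.id_apply, ← integral_smul]
    exact integral_congr_ae (ae_restrict_of_ae (Lp.coeFn_smul c f))
  cont := continuous_setIntegral B

lemma setIntCLM_apply (B : Set Ω) (f : Lp ℝ 1 P) : setIntCLM P B f = ∫ z in B, f z ∂P := rfl

lemma exists_small_setIntegral (x : Lp ℝ 1 P) {η : ℝ} (hη : 0 < η) :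
    ∃ a : ℝ, 0 < a ∧ ∀ A : Set Ω, P A < ENNReal.ofReal a → ∫ z in A, |x z| ∂P ≤ η := by
  obtain ⟨δ, hδ, h⟩ := exists_pos_setLIntegral_lt_of_measure_lt (μ := P)
    (f := fun z => ‖x z‖ₑ) (L1.integrable_coeFn x).hasFiniteIntegral.ne
    (ε := ENNReal.ofReal η) (by simpa using hη)
  obtain ⟨a, -, h1, h2⟩ := ENNReal.lt_iff_exists_real_btwn.1 hδ
  refine ⟨a, by simpa using h1, fun A hA => ?_⟩
  have h3 := h A (hA.trans h2)
  have h4 := integral_norm_eq_lintegral_enorm (μ := P.restrict A)
    (L1.integrable_coeFn x).integrableOn.aestronglyMeasurable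
  simp only [Real.norm_eq_abs] at h4
  rw [h4]
  exact ENNReal.toReal_le_of_le_ofReal hη.le h3.le

lemma l1_lower [IsProbabilityMeasure P] (E : Submodule ℝ (Lp ℝ 1 P))
    (htb : UnitBallTotallyBoundedInMeasure P E) {t : ℝ} (ht : 0 < t) (x : E) (hx : ‖x‖ = 1)
    {η : ℝ} (hη : 0 < η) : ∃ F : Submodule ℝ E, Cof F ∧ ∀ y ∈ F, ‖y‖ = 1 →
      t / 2 - η ≤ (‖x + t • y‖ + ‖x - t • y‖) / 2 - 1 := by
  obtain ⟨a₀, ha₀, hsmall⟩ := exists_small_setIntegral (x : Lp ℝ 1 P) (half_pos hη)
  set a := min a₀ (η / (2 * t)) with ha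
  have hapos : 0 < a := by positivity
  obtain ⟨s, -, hs⟩ := htb a hapos
  obtain ⟨F, hF, hFs⟩ := exists_cof_of_functionals (fun g : s =>
    (setIntCLM P {z | 0 < (g : Lp ℝ 1 P) z} - setIntCLM P {z | 0 < (g : Lp ℝ 1 P) z}ᶜ).comp
      E.subtypeL)
  refine ⟨F, hF, fun y hy hy1 => ?_⟩
  obtain ⟨g, hg, hd⟩ := hs y y.2 hy1.le
  have hne : {a : ℝ | 0 < a ∧ P {z | a < abs (((y : Lp ℝ 1 P) : Ω → ℝ) z - (g : Ω → ℝ) z)} <
      ENNReal.ofReal a}.Nonempty :=
    ⟨2, by norm_num, prob_le_one.trans_lt (by simp)⟩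
  obtain ⟨a', ⟨ha'0, ha'P⟩, ha'⟩ := exists_lt_of_csInf_lt hne hd
  set Y : Ω → ℝ := ⇑(y : Lp ℝ 1 P) with hY
  set G : Ω → ℝ := ⇑g with hG
  set X : Ω → ℝ := ⇑(x : Lp ℝ 1 P) with hX
  have hYm : Measurable Y := (Lp.stronglyMeasurable _).measurable
  have hGm : Measurable G := (Lp.stronglyMeasurable _).measurable
  have hYi : Integrable Y P := L1.integrable_coeFn _
  have hXi : Integrable X P := L1.integrable_coeFn _
  set A := {z | a' < |Y z - G z|} with hA
  set B := {z | 0 < G z} with hB
  have hAm : MeasurableSet A := measurableSet_lt measurable_const (hYm.sub hGm).abs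
  have hBm : MeasurableSet B := measurableSet_lt measurable_const hGm
  have h0 : ∫ z in B, Y z ∂P - ∫ z in Bᶜ, Y z ∂P = 0 := hFs y hy ⟨g, hg⟩
  have hY1 : ∫ z, |Y z| ∂P = 1 := by
    rw [← hy1, ← Submodule.norm_coe, L1.norm_eq_integral_norm]; rfl
  have hX1 : ∫ z, |X z| ∂P = 1 := by
    rw [← hx, ← Submodule.norm_coe, L1.norm_eq_integral_norm]; rfl
  have h1 : 1 ≤ 2 * a' + 2 * ∫ z in A, |Y z| ∂P := by
    rw [← integral_indicator hBm, ← integral_indicator hBm.compl] at h0
    have h2 : ∫ z, (|Y z| - (B.indicator Y z - Bᶜ.indicator Y z)) ∂P ≤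
        ∫ z, (2 * a' + 2 * A.indicator (fun z => |Y z|) z) ∂P := by
      refine integral_mono (hYi.abs.sub ((hYi.indicator hBm).sub (hYi.indicator hBm.compl)))
        ((integrable_const _).add ((hYi.abs.indicator hAm).const_mul 2)) fun z => ?_
      have h3 := le_abs_self (Y z)
      have h4 := neg_abs_le (Y z)
      by_cases hzA : z ∈ A <;> by_cases hzB : z ∈ B
      · simp only [Set.indicator_of_mem hzA, Set.indicator_of_mem hzB,
          Set.indicator_of_notMem (Set.notMem_compl_iff.2 hzB)]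
        linarith
      · simp only [Set.indicator_of_mem hzA, Set.indicator_of_notMem hzB,
          Set.indicator_of_mem (Set.mem_compl hzB)]
        linarith
      · simp only [Set.indicator_of_notMem hzA, Set.indicator_of_mem hzB,
          Set.indicator_of_notMem (Set.notMem_compl_iff.2 hzB)]
        have h5 : |Y z - G z| ≤ a' := not_lt.1 hzA
        have h6 : 0 < G z := hzB
        rw [abs_le] at h5
        rcases abs_cases (Y z) with h | h <;> linarith
      · simp only [Set.indicator_of_notMem hzA, Set.indicator_of_notMem hzB,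
          Set.indicator_of_mem (Set.mem_compl hzB)]
        have h5 : |Y z - G z| ≤ a' := not_lt.1 hzA
        have h6 : G z ≤ 0 := not_lt.1 hzB
        rw [abs_le] at h5
        rcases abs_cases (Y z) with h | h <;> linarith
    have i1 : Integrable (fun z => B.indicator Y z - Bᶜ.indicator Y z) P :=
      (hYi.indicator hBm).sub (hYi.indicator hBm.compl)
    rw [integral_sub hYi.abs i1,
      integral_sub (hYi.indicator hBm) (hYi.indicator hBm.compl), h0, hY1,
      integral_add (integrable_const _) ((hYi.abs.indicator hAm).const_mul 2), integral_const_mul,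
      integral_const_mul, integral_indicator hAm] at h2
    simpa using h2
  have h2 : ∫ z in A, |X z| ∂P ≤ η / 2 := hsmall A (ha'P.trans_le
    (ENNReal.ofReal_le_ofReal (ha'.le.trans (min_le_left _ _))))
  have hp : ‖x + t • y‖ = ∫ z, |X z + t * Y z| ∂P := by
    rw [← Submodule.norm_coe, L1.norm_eq_integral_norm]
    refine integral_congr_ae ?_
    filter_upwards [Lp.coeFn_add (x : Lp ℝ 1 P) (t • (y : Lp ℝ 1 P)),
      Lp.coeFn_smul t (y : Lp ℝ 1 P)] with z h1 h2
    rw [Submodule.coe_add, Submodule.coe_smul, h1, Pi.add_apply, h2]; rfl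
  have hm : ‖x - t • y‖ = ∫ z, |X z - t * Y z| ∂P := by
    rw [← Submodule.norm_coe, L1.norm_eq_integral_norm]
    refine integral_congr_ae ?_
    filter_upwards [Lp.coeFn_sub (x : Lp ℝ 1 P) (t • (y : Lp ℝ 1 P)),
      Lp.coeFn_smul t (y : Lp ℝ 1 P)] with z h1 h2
    rw [Submodule.coe_sub, Submodule.coe_smul, h1, Pi.sub_apply, h2]; rfl
  have h3 : ∫ z, (2 * (|X z| - A.indicator (fun z => |X z|) z) +
      2 * t * A.indicator (fun z => |Y z|) z) ∂P ≤
      ∫ z, (|X z + t * Y z| + |X z - t * Y z|) ∂P := by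
    refine integral_mono (((hXi.abs.sub (hXi.abs.indicator hAm)).const_mul 2).add
      ((hYi.abs.indicator hAm).const_mul _))
      ((hXi.add (hYi.const_mul t)).abs.add (hXi.sub (hYi.const_mul t)).abs) fun z => ?_
    by_cases hzA : z ∈ A
    · simp only [Set.indicator_of_mem hzA]
      have := abs_sub (X z + t * Y z) (X z - t * Y z)
      rw [show X z + t * Y z - (X z - t * Y z) = (2 * t) * Y z by ring, abs_mul,
        abs_of_pos (by positivity : 0 < 2 * t)] at this
      linarith
    · simp only [Set.indicator_of_notMem hzA]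
      have := abs_add_le (X z + t * Y z) (X z - t * Y z)
      rw [show X z + t * Y z + (X z - t * Y z) = 2 * X z by ring, abs_mul, abs_two] at this
      linarith
  have i1 : Integrable (fun z => 2 * (|X z| - A.indicator (fun z => |X z|) z)) P :=
    (hXi.abs.sub (hXi.abs.indicator hAm)).const_mul 2
  have i2 : Integrable (fun z => |X z + t * Y z|) P := (hXi.add (hYi.const_mul t)).abs
  have i3 : Integrable (fun z => |X z - t * Y z|) P := (hXi.sub (hYi.const_mul t)).abs
  rw [integral_add i1 ((hYi.abs.indicator hAm).const_mul _), integral_add i2 i3,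
    integral_const_mul, integral_const_mul, integral_sub hXi.abs (hXi.abs.indicator hAm),
    integral_indicator hAm, integral_indicator hAm, hX1] at h3
  have h4 : a' * (2 * t) ≤ η := by
    rw [← le_div_iff₀ (by positivity)]
    exact ha'.le.trans (min_le_right _ _)
  rw [hp, hm]
  nlinarith

end Crest.Agent.R125
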