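import Mathlib
import Crest.Prelude.Def_TreeProducts
import Crest.Agent.R125.Common

/-! Path products of independent multipliers form an asymptotically null separated tree in `L¹`. -/

set_option autoImplicit false

open Crest.AnalysisR Crest.AnalysisR.TreeProduct MeasureTheory ProbabilityTheory Filter Topology

namespace Crest.Agent.R125

section
variable {Ω : Type} [mΩ : MeasurableSpace Ω] {μ : Measure Ω} {ν : Measure ℝ}
  {W : List ℕ → Ω → ℝ}

omit mΩ in
lemma pathProduct_meas_of {m : MeasurableSpace Ω} :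
    ∀ v : List ℕ, (∀ u, u <:+ v → Measurable[m] (W u)) → Measurable[m] (pathProduct W v)
  | [], _ => measurable_const
  | a :: v, h => (pathProduct_meas_of v fun u hu => h u (hu.trans (List.suffix_cons a v))).mul
      (h _ (List.suffix_refl _))

lemma indep_children (hW : IsRealization ν μ W) (v : List ℕ) {Y : Ω → ℝ}
    (hY : Measurable[⨆ u ∈ {u : List ℕ | ∃ a, u = a :: v},
      MeasurableSpace.comap (W u) inferInstance] Y) :
    IndepFun (pathProduct W v) Y μ := by
  have h1 := indep_iSup_of_disjoint (fun u => (hW.1 u).comap_le) hW.2.1.iIndep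
    (S := {u | u <:+ v}) (T := {u : List ℕ | ∃ a, u = a :: v}) (by
      rw [Set.disjoint_left]
      rintro u hu ⟨a, rfl⟩
      have := List.IsSuffix.length_le hu
      simp at this)
  rw [IndepFun_iff_Indep]
  refine indep_of_indep_of_le h1 (Measurable.comap_le ?_) hY.comap_le
  refine pathProduct_meas_of v fun u hu => ?_
  exact (comap_measurable (W u)).mono
    (le_biSup (fun u => MeasurableSpace.comap (W u) inferInstance) hu) le_rfl

omit mΩ in
lemma child_meas (v : List ℕ) (a : ℕ) :
    Measurable[⨆ u ∈ {u : List ℕ | ∃ a, u = a :: v},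
      MeasurableSpace.comap (W u) inferInstance] (W (a :: v)) :=
  (comap_measurable (W (a :: v))).mono
    (le_biSup (fun u => MeasurableSpace.comap (W u) inferInstance)
      (show a :: v ∈ {u : List ℕ | ∃ a, u = a :: v} from ⟨a, rfl⟩)) le_rfl

lemma integral_abs_sq_le [IsProbabilityMeasure μ] {X : Ω → ℝ} (hX : MemLp X 2 μ) :
    (∫ z, |X z| ∂μ) ^ 2 ≤ ∫ z, X z ^ 2 ∂μ := by
  have h1 := variance_eq_sub (hX.abs)
  have h2 := variance_nonneg (|X|) μ
  simp only [Pi.pow_apply, Pi.abs_apply, sq_abs] at h1
  linarith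

variable [IsProbabilityMeasure μ] [IsProbabilityMeasure ν]

lemma product_not_auc (hpos : ν (Set.Ioi 0) = 1)
    (hnc : ∀ c : ℝ, ν ≠ Measure.dirac c) (hmean : ∫ x, x ∂ν = 1)
    (hm2 : Integrable (fun x : ℝ => x ^ 2) ν) (hW : IsRealization ν μ W)
    (N : productSpan μ W → ℝ) (hN : EqNorm N) : ¬ AUC N := by
  have hid2 : MemLp (id : ℝ → ℝ) 2 ν :=
    (memLp_two_iff_integrable_sq aestronglyMeasurable_id).2 hm2
  have hW2 : ∀ a v, MemLp (W (a :: v)) 2 μ := by
    intro a v
    have := hid2
    rw [← hW.2.2 (a :: v) (by simp)] at this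
    exact (memLp_map_measure_iff this.1 (hW.1 _).aemeasurable).1 this
  have hint : ∀ (g : ℝ → ℝ), Measurable g → ∀ a v, ∫ z, g (W (a :: v) z) ∂μ = ∫ x, g x ∂ν := by
    intro g hg a v
    rw [← hW.2.2 (a :: v) (by simp), integral_map (hW.1 _).aemeasurable hg.aestronglyMeasurable]
  have habs : ∫ x, |x| ∂ν = 1 := by
    rw [← hmean]
    refine integral_congr_ae ?_
    have : ∀ᵐ x ∂ν, x ∈ Set.Ioi (0 : ℝ) := by
      rw [ae_iff]
      exact (prob_compl_eq_zero_iff measurableSet_Ioi).2 hpos
    filter_upwards [this] with x hx using abs_of_pos hx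
  have hPm : ∀ v, Measurable (pathProduct W v) := fun v =>
    pathProduct_meas_of v fun u _ => hW.1 u
  have hP : ∀ v, Integrable (pathProduct W v) μ ∧ ∫ z, |pathProduct W v z| ∂μ = 1 := by
    intro v
    induction v with
    | nil => simp [pathProduct]
    | cons a v ih =>
      have hi := indep_children hW v (child_meas v a)
      refine ⟨hi.integrable_mul ih.1 ((hW2 a v).integrable one_le_two), ?_⟩
      have := hi.integral_fun_comp_mul_comp (f := fun x : ℝ => |x|) (g := fun x : ℝ => |x|)
        (hPm v).aemeasurable (hW.1 _).aemeasurable measurable_abs.aestronglyMeasurable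
        measurable_abs.aestronglyMeasurable
      simp only [pathProduct, abs_mul]
      rw [this, ih.2, hint (fun x => |x|) measurable_abs, habs, mul_one]
  set θ := ∫ x, |x - 1| ∂ν with hθ
  have hθi : Integrable (fun x : ℝ => |x - 1|) ν :=
    ((hid2.integrable one_le_two).sub (integrable_const 1)).abs
  have hθpos : 0 < θ := by
    refine lt_of_le_of_ne (integral_nonneg fun x => abs_nonneg _) fun h => hnc 1 ?_
    have h1 := (integral_eq_zero_iff_of_nonneg (fun x => abs_nonneg _) hθi).1 h.symm
    have h2 : (id : ℝ → ℝ) =ᵐ[ν] fun _ => (1 : ℝ) := by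
      filter_upwards [h1] with x hx
      simpa [sub_eq_zero] using hx
    have h3 : Measure.map id ν = Measure.map (fun _ => (1 : ℝ)) ν := Measure.map_congr h2
    simpa using h3
  set p : List ℕ → productSpan μ W := fun v => ⟨(hP v).1.toL1 _,
    Submodule.le_topologicalClosure _ (Submodule.subset_span ⟨v, (hP v).1.coeFn_toL1⟩)⟩ with hp
  have hpae : ∀ v, ((p v : Lp ℝ 1 μ) : Ω → ℝ) =ᵐ[μ] pathProduct W v := fun v =>
    (hP v).1.coeFn_toL1
  have hnorm : ∀ (f : productSpan μ W) (g : Ω → ℝ), ((f : Lp ℝ 1 μ) : Ω → ℝ) =ᵐ[μ] g →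
      ‖f‖ = ∫ z, |g z| ∂μ := by
    intro f g h
    rw [← Submodule.norm_coe, L1.norm_eq_integral_norm]
    refine integral_congr_ae ?_
    filter_upwards [h] with z hz
    rw [hz, Real.norm_eq_abs]
  have hsum : ∀ v (A : Finset ℕ), ‖∑ a ∈ A, (p (a :: v) - p v)‖ =
      ∫ z, |∑ a ∈ A, (W (a :: v) z - 1)| ∂μ := by
    intro v A
    rw [hnorm _ (fun z => pathProduct W v z * ∑ a ∈ A, (W (a :: v) z - 1))]
    · have hi := indep_children hW v (Y := fun z => ∑ a ∈ A, (W (a :: v) z - 1))
        (Finset.measurable_sum _ fun a _ => (child_meas v a).sub_const 1)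
      have := hi.integral_fun_comp_mul_comp (f := fun x : ℝ => |x|) (g := fun x : ℝ => |x|)
        (hPm v).aemeasurable
        (Finset.measurable_sum _ fun a _ => (hW.1 _).sub_const 1).aemeasurable
        measurable_abs.aestronglyMeasurable measurable_abs.aestronglyMeasurable
      simp only [abs_mul]
      rw [this, (hP v).2, one_mul]
    · rw [Submodule.coe_sum]
      refine (Lp.coeFn_finsetSum _ _).trans ?_
      have : ∀ᵐ z ∂μ, ∀ a : ℕ, ((p (a :: v) - p v : productSpan μ W) : Lp ℝ 1 μ) z =
          pathProduct W v z * (W (a :: v) z - 1) := by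
        rw [ae_all_iff]
        intro a
        filter_upwards [Lp.coeFn_sub (p (a :: v) : Lp ℝ 1 μ) (p v), hpae (a :: v), hpae v]
          with z h1 h2 h3
        rw [Submodule.coe_sub, h1, Pi.sub_apply, h2, h3, pathProduct]
        ring
      filter_upwards [this] with z hz
      simp only [Finset.sum_apply, hz, Finset.mul_sum]
  refine not_auc_of_tree (θ := θ / 2) (m := 1) (M := 1) (by positivity) one_pos
    (Set.range p) ⟨_, [], rfl⟩ ?_ ?_ N hN
  · rintro _ ⟨v, rfl⟩
    rw [hnorm _ _ (hpae v), (hP v).2]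
    exact ⟨le_rfl, le_rfl⟩
  · rintro _ ⟨v, rfl⟩ F hF ε hε
    obtain ⟨a, y, hy, hay⟩ := hF.exists_near (fun a => p (a :: v) - p v) (Var[id; ν]) (fun A => by
      rw [hsum]
      have hA : MemLp (fun z => ∑ a ∈ A, (W (a :: v) z - 1)) 2 μ :=
        memLp_finsetSum _ fun a _ => (hW2 a v).sub (memLp_const 1)
      refine (integral_abs_sq_le hA).trans (le_of_eq ?_)
      have h1 := IndepFun.variance_sum (μ := μ) (X := fun a => W (a :: v)) (s := A)
        (fun a _ => hW2 a v) (fun a _ b _ hab => hW.2.1.indepFun (by simpa using hab))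
      have h2 : ∀ a, Var[W (a :: v); μ] = Var[id; ν] := by
        intro a
        rw [← hW.2.2 (a :: v) (by simp), variance_id_map (hW.1 _).aemeasurable]
      simp only [h2, Finset.sum_const, nsmul_eq_mul] at h1
      rw [mul_comm, ← h1, variance_eq_integral
        (Finset.aemeasurable_sum _ fun a _ => (hW.1 _).aemeasurable)]
      have h3 : ∫ x, (∑ a ∈ A, W (a :: v)) x ∂μ = (A.card : ℝ) := by
        simp only [Finset.sum_apply]
        rw [integral_finsetSum _ fun a _ => (hW2 a v).integrable one_le_two]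
        simp [hint (fun x => x) measurable_id, hmean]
      rw [h3]
      simp [Finset.sum_sub_distrib]) (ε := min ε (θ / 2)) (by positivity)
    refine ⟨y, hy, _, ⟨a :: v, rfl⟩, ?_, ?_⟩
    · have h1 := hsum v {a}
      simp only [Finset.sum_singleton] at h1
      rw [hint (fun x => |x - 1|) (by fun_prop)] at h1
      have h2 := norm_sub_norm_le (p (a :: v) - p v) y
      have h3 := min_le_right ε (θ / 2)
      linarith
    · refine le_trans (le_of_eq ?_) (hay.le.trans (min_le_left _ _))
      rw [norm_sub_rev]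
      congr 1
      abel

end

end Crest.Agent.R125
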